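import Crest.Agent.Lib.CylV.Core

/-!
Assembly of the cover from the patches, for given constants.
-/

set_option autoImplicit false

noncomputable section

namespace Crest.Agent.Lib.CylV

open scoped RealInnerProductSpace ENNReal
open Set MeasureTheory

theorem cover_with_constants {D : Set E2} (hD : IsCompact D) {V : E2 → E2} {U : Set E2}
    (hU : IsOpen U) (hV : ContDiffOn ℝ 1 V U) {L h : ℝ} (hL : 0 < L)
    (htr : ∀ p ∈ D, LinearMap.trace ℝ E2 (fderiv ℝ V p : E2 →ₗ[ℝ] E2) = 0)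
    (hdet0 : ∀ p ∈ D, LinearMap.det (fderiv ℝ V p : E2 →ₗ[ℝ] E2) ≤ 0)
    {m₀ B₀ ℓ δ κ τ ω bd : ℝ} (hm₀ : 0 < m₀) (hδ : 0 < δ) (hκ : 0 < κ) (hℓ : 0 < ℓ) (hτ : 0 ≤ τ)
    (hdetm : ∀ p ∈ D, m₀ ≤ 1 + L ^ 2 * LinearMap.det (fderiv ℝ V p : E2 →ₗ[ℝ] E2))
    (hAn : ∀ p ∈ D, ‖fderiv ℝ V p‖ ≤ B₀)
    (hbd0 : 0 ≤ bd)
    (hbd : bd = 2 * (latK (L * B₀) m₀ + 2) * δ) (hbdℓ : bd + δ ≤ ℓ)
    (hball : ∀ P ∈ D, Metric.closedBall P (4 * ℓ) ⊆ U)
    (hosc : ∀ P ∈ D, ∀ q ∈ Metric.closedBall P (4 * ℓ), ‖fderiv ℝ V q - fderiv ℝ V P‖ ≤ ω)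
    (hω : L * (ω * (2 * (latK (L * B₀) m₀ + 1))) ≤ κ)
    (hJosc : ∀ P ∈ D, ∀ x ∈ Metric.closedBall P (4 * ℓ), ∀ y ∈ Metric.closedBall P (4 * ℓ),
      Jf h (V x) ≤ Jf h (V y) + τ)
    (hJi : IntegrableOn (fun x => Jf h (V x)) (Metric.cthickening (2 * ℓ) D))
    (hT : volume (Metric.cthickening (2 * ℓ) D) ≠ ∞)
    (hTm : volume (Metric.cthickening (2 * ℓ) D) ≤ volume D + ENNReal.ofReal τ) :
    ∃ (ι : Type) (F : Finset ι) (c a b g : ι → E2),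
      (∀ t, a t ≠ 0 ∧ ‖b t‖ = ‖a t‖ ∧ ⟪a t, b t⟫ = 0) ∧
      (∀ p ∈ D, ∀ s : ℝ, |s| ≤ L → ∃ t ∈ F, ∃ x ∈ Icc (0 : ℝ) 1, ∃ y ∈ Icc (0 : ℝ) 1,
        p + s • V p = c t + x • a t + y • b t + s • g t) ∧
      ∑ t ∈ F, ‖a t‖ ^ 2 / Real.sqrt (1 + (g t 0) ^ 2 + h ^ 2 * (g t 1) ^ 2) ≤
        (1 + 2 * κ) ^ 2 * (ℓ + 2 * (bd + δ)) ^ 2 / ℓ ^ 2 *
          ((∫ x in D, Jf h (V x)) + τ + τ * ((volume D).toReal + τ)) := by
  classical
  -- patch data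
  have hdata : ∀ g : ℤ × ℤ, ∃ (P : E2) (fr : OrthonormalBasis (Fin 2) ℝ E2) (β γ : ℝ),
      (Qg ℓ g ∩ D).Nonempty → (P ∈ Qg ℓ g ∧ P ∈ D ∧ fderiv ℝ V P (fr 0) = γ • fr 1 ∧
        fderiv ℝ V P (fr 1) = β • fr 0 ∧
        β * γ = - LinearMap.det (fderiv ℝ V P : E2 →ₗ[ℝ] E2)) := by
    intro g
    by_cases hg : (Qg ℓ g ∩ D).Nonempty
    · obtain ⟨P, hPQ, hPD⟩ := hg
      obtain ⟨fr, β, γ, h0, h1, h2⟩ := exists_frame (fderiv ℝ V P) (htr P hPD)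
      exact ⟨P, fr, β, γ, fun _ => ⟨hPQ, hPD, h0, h1, h2⟩⟩
    · exact ⟨0, EuclideanSpace.basisFun (Fin 2) ℝ, 0, 0, fun h' => absurd h' hg⟩
  choose P fr β γ hdat using hdata
  have hSfin := finite_grid hℓ hD.isBounded
  set S : Finset (ℤ × ℤ) := hSfin.toFinset with hS
  have hmemS : ∀ g, g ∈ S ↔ (Qg ℓ g ∩ D).Nonempty := fun g => by
    rw [hS, Set.Finite.mem_toFinset]; rfl
  set bd' := bd + δ with hbd'
  have hbd'0 : 0 ≤ bd' := by positivity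
  have hWb : ∀ g, Bornology.IsBounded (Wg ℓ bd' g) := fun g => isBounded_rect _ _ _ _
  let C : ℤ × ℤ → Finset (ℤ × ℤ) := fun g => (finite_tiles (fr g) (P g) hδ (hWb g)).toFinset
  have hC : ∀ g t, t ∈ C g ↔ tile (fr g) (P g) δ t.1 t.2 ⊆ Wg ℓ bd' g := fun g t => by
    simp only [C, Set.Finite.mem_toFinset]; rfl
  let latt : ℤ × ℤ → ℤ × ℤ → E2 := fun g t => lat (fr g) (P g) δ t.1 t.2
  have hne : (1 + 2 * κ) * δ ≠ 0 := by positivity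
  have hnorm : ∀ (g : ℤ × ℤ) (i : Fin 2), ‖((1 + 2 * κ) * δ) • fr g i‖ = (1 + 2 * κ) * δ := by
    intro g i
    rw [norm_smul, frame_norm, mul_one, Real.norm_of_nonneg (by positivity)]
  refine ⟨Σ _ : ℤ × ℤ, ℤ × ℤ, S.sigma C,
    fun t => latt t.1 t.2 - (κ * δ) • fr t.1 0 - (κ * δ) • fr t.1 1,
    fun t => ((1 + 2 * κ) * δ) • fr t.1 0,
    fun t => ((1 + 2 * κ) * δ) • fr t.1 1,
    fun t => V (latt t.1 t.2), ?_, ?_, ?_⟩
  · intro t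
    refine ⟨?_, ?_, ?_⟩
    · intro h0
      have h1 := hnorm t.1 0
      have h0' : ((1 + 2 * κ) * δ) • fr t.1 0 = 0 := h0
      rw [h0', norm_zero] at h1
      exact hne h1.symm
    · exact (hnorm t.1 1).trans (hnorm t.1 0).symm
    · simp only [inner_smul_left, inner_smul_right]
      have h01 : ⟪fr t.1 0, fr t.1 1⟫ = 0 := (fr t.1).orthonormal.2 (show (0 : Fin 2) ≠ 1 by decide)
      rw [h01]; simp
  · intro p hp s hs
    obtain ⟨g, hg⟩ := exists_mem_Qg hℓ p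
    have hgS : g ∈ S := (hmemS g).2 ⟨p, hg, hp⟩
    obtain ⟨hPQ, hPD, h0, h1, h2⟩ := hdat g ⟨p, hg, hp⟩
    obtain ⟨M, N, hsub, hnear, x, hx, y, hy, hxy⟩ := patch_cover hU hV hL hm₀ hδ hκ hℓ hs (fr g)
      h0 h1 h2 (hdet0 _ hPD) (hdetm _ hPD) (hAn _ hPD) hPQ hg hbd (by linarith) (hball _ hPD)
      (hosc _ hPD) hω
    refine ⟨⟨g, (M, N)⟩, ?_, x, hx, y, hy, hxy⟩
    rw [Finset.mem_sigma]
    exact ⟨hgS, (hC g (M, N)).2 hsub⟩
  · rw [Finset.sum_sigma]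
    have hrew : ∀ g ∈ S, ∀ t ∈ C g,
        ‖((1 + 2 * κ) * δ) • fr g 0‖ ^ 2 /
            Real.sqrt (1 + (V (latt g t) 0) ^ 2 + h ^ 2 * (V (latt g t) 1) ^ 2) =
          ((1 + 2 * κ) * δ) ^ 2 * (fun x => Jf h (V x)) (latt g t) := by
      intro g _ t _
      rw [hnorm g 0]
      simp only [Jf]
      ring
    have hstep : ∑ g ∈ S, ∑ t ∈ C g,
        ‖((1 + 2 * κ) * δ) • fr g 0‖ ^ 2 /
            Real.sqrt (1 + (V (latt g t) 0) ^ 2 + h ^ 2 * (V (latt g t) 1) ^ 2) =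
        ∑ g ∈ S, ∑ t ∈ C g, ((1 + 2 * κ) * δ) ^ 2 * (fun x => Jf h (V x)) (latt g t) :=
      Finset.sum_congr rfl fun g hg => Finset.sum_congr rfl fun t ht => hrew g hg t ht
    have hQT : ∀ g ∈ S, Qg ℓ g ⊆ Metric.cthickening (2 * ℓ) D := by
      intro g hg x hx
      obtain ⟨hPQ, hPD, -⟩ := hdat g ((hmemS g).1 hg)
      refine Metric.mem_cthickening_of_dist_le x (P g) _ D hPD ?_
      rw [dist_eq_norm]
      exact norm_sub_le_of_mem_Qg hx hPQ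
    have hb1 := sum_bound S C (Qg ℓ) (fun x => Jf h (V x)) latt (bd := bd') hℓ hδ hκ hτ
      (fun g _ => measurableSet_Qg ℓ g) (fun g _ => volume_Qg hℓ g)
      (fun g hg => hJi.mono_set (hQT g hg)) (fun x => (Jf_pos _ _).le)
      (by
        intro g hg t ht x hx
        obtain ⟨hPQ, hPD, -⟩ := hdat g ((hmemS g).1 hg)
        have hlat : latt g t ∈ Wg ℓ bd' g :=
          (hC g t).1 ht (lat_mem_tile (fr g) (P g) hδ t.1 t.2)
        have h1 : ‖P g - latt g t‖ ≤ 2 * (ℓ + bd') := norm_sub_le_of_mem_Wg hPQ hlat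
        have h2 : ‖x - P g‖ ≤ 2 * ℓ := norm_sub_le_of_mem_Qg hx hPQ
        apply hJosc (P g) hPD
        · rw [Metric.mem_closedBall, dist_comm, dist_eq_norm]
          linarith
        · rw [Metric.mem_closedBall, dist_eq_norm]
          linarith)
      (by
        intro g hg
        have hvol := volume_Wg hℓ hbd'0 g
        have h1 := card_mul_le_volume (fr g) (P g) hδ (C g) (Wg ℓ bd' g)
          (by rw [hvol]; exact ENNReal.ofReal_ne_top) (fun t ht => (hC g t).1 ht)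
        rwa [hvol, ENNReal.toReal_ofReal (by positivity)] at h1)
    have hb2 := integral_bound S (Qg ℓ) D (Metric.cthickening (2 * ℓ) D) (fun x => Jf h (V x)) hτ
      hD.measurableSet (fun g _ => measurableSet_Qg ℓ g)
      (fun g _ g' _ hgg' => Qg_disjoint hℓ hgg')
      (by
        intro p hp
        obtain ⟨g, hg⟩ := exists_mem_Qg hℓ p
        have hgS : g ∈ S := (hmemS g).2 ⟨p, hg, hp⟩
        exact Set.mem_biUnion (Finset.mem_coe.2 hgS) hg)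
      (Set.iUnion₂_subset hQT) hT hTm hJi (fun x => (Jf_pos _ _).le) (fun x => Jf_le_one _ _)
    refine le_trans (le_of_eq hstep) (le_trans hb1 ?_)
    exact mul_le_mul_of_nonneg_left hb2 (by positivity)

end Crest.Agent.Lib.CylV
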