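import Crest.Agent.Lib.CylV.SumBound

/-!
Assembly of the cover from the patches, for given constants.
-/

set_option autoImplicit false

noncomputable section

namespace Crest.Agent.Lib.CylV

open scoped RealInnerProductSpace ENNReal
open Set MeasureTheory

lemma isBounded_rect (x₀ x₁ y₀ y₁ : ℝ) : Bornology.IsBounded (rect x₀ x₁ y₀ y₁) := by
  refine isBounded_iff_forall_norm_le.2 ⟨(|x₀| + |x₁|) + (|y₀| + |y₁|), fun v hv => ?_⟩
  have h1 := norm_le_abs_add_abs v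
  have h2 : |v 0| ≤ |x₀| + |x₁| := by
    have a1 := hv.1.1
    have a2 := hv.1.2
    rw [abs_le]
    constructor
    · linarith [neg_abs_le x₀, abs_nonneg x₁]
    · linarith [le_abs_self x₁, abs_nonneg x₀]
  have h3 : |v 1| ≤ |y₀| + |y₁| := by
    have a1 := hv.2.1
    have a2 := hv.2.2
    rw [abs_le]
    constructor
    · linarith [neg_abs_le y₀, abs_nonneg y₁]
    · linarith [le_abs_self y₁, abs_nonneg y₀]
  linarith

lemma finite_tiles (b : OrthonormalBasis (Fin 2) ℝ E2) (o : E2) {δ : ℝ} (hδ : 0 < δ) {W : Set E2}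
    (hW : Bornology.IsBounded W) : {t : ℤ × ℤ | tile b o δ t.1 t.2 ⊆ W}.Finite := by
  obtain ⟨R, hR⟩ := hW.exists_norm_le
  set M : ℤ := ⌈(R + ‖o‖) / δ⌉ with hM
  have hRl : (R + ‖o‖) / δ ≤ (M : ℝ) := Int.le_ceil _
  refine Set.Finite.subset ((Set.finite_Icc (-M) M).prod (Set.finite_Icc (-M) M)) ?_
  rintro ⟨m, n⟩ ht
  have h1 : lat b o δ m n ∈ W := ht (lat_mem_tile b o hδ m n)
  have h2 : ‖lat b o δ m n - o‖ ≤ R + ‖o‖ :=
    le_trans (norm_sub_le _ _) (by linarith [hR _ h1])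
  obtain ⟨h3, h4⟩ := lat_index_bound b o hδ h2
  have h5 : |(m : ℝ)| ≤ M := le_trans h3 hRl
  have h6 : |(n : ℝ)| ≤ M := le_trans h4 hRl
  rw [abs_le] at h5 h6
  refine ⟨⟨?_, ?_⟩, ⟨?_, ?_⟩⟩
  · exact_mod_cast h5.1
  · exact_mod_cast h5.2
  · exact_mod_cast h6.1
  · exact_mod_cast h6.2

section Patch

variable {D : Set E2} {V : E2 → E2} {U : Set E2} {L : ℝ}

/-- One patch covers the moving points of its grid square. -/
lemma patch_cover (hU : IsOpen U) (hV : ContDiffOn ℝ 1 V U) (hL : 0 < L)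
    {m₀ B₀ ℓ δ κ ω bd : ℝ} (hm₀ : 0 < m₀) (hδ : 0 < δ) (hκ : 0 < κ) (hℓ : 0 < ℓ)
    {P p : E2} {g : ℤ × ℤ} {s : ℝ} (hs : |s| ≤ L)
    (b : OrthonormalBasis (Fin 2) ℝ E2) {β γ : ℝ}
    (hb0 : fderiv ℝ V P (b 0) = γ • b 1) (hb1 : fderiv ℝ V P (b 1) = β • b 0)
    (hbg : β * γ = - LinearMap.det (fderiv ℝ V P : E2 →ₗ[ℝ] E2))
    (hdet0 : LinearMap.det (fderiv ℝ V P : E2 →ₗ[ℝ] E2) ≤ 0)
    (hdetm : m₀ ≤ 1 + L ^ 2 * LinearMap.det (fderiv ℝ V P : E2 →ₗ[ℝ] E2))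
    (hAn : ‖fderiv ℝ V P‖ ≤ B₀)
    (hPQ : P ∈ Qg ℓ g) (hpQ : p ∈ Qg ℓ g)
    (hbd : bd = 2 * (latK (L * B₀) m₀ + 2) * δ) (hbdℓ : bd ≤ ℓ)
    (hball : Metric.closedBall P (4 * ℓ) ⊆ U)
    (hosc : ∀ q ∈ Metric.closedBall P (4 * ℓ), ‖fderiv ℝ V q - fderiv ℝ V P‖ ≤ ω)
    (hω : L * (ω * (2 * (latK (L * B₀) m₀ + 1))) ≤ κ) :
    ∃ M N : ℤ, tile b P δ M N ⊆ Wg ℓ (bd + δ) g ∧ ‖lat b P δ M N - P‖ ≤ 3 * ℓ ∧
      ∃ x ∈ Icc (0 : ℝ) 1, ∃ y ∈ Icc (0 : ℝ) 1,
        p + s • V p = (lat b P δ M N - (κ * δ) • b 0 - (κ * δ) • b 1)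
          + x • (((1 + 2 * κ) * δ) • b 0) + y • (((1 + 2 * κ) * δ) • b 1)
          + s • V (lat b P δ M N) := by
  set A := fderiv ℝ V P with hA
  set B := L * B₀ with hBdef
  set K := latK B m₀ with hK
  have hB₀ : 0 ≤ B₀ := le_trans (norm_nonneg _) hAn
  have hB : 0 ≤ B := mul_nonneg hL.le hB₀
  have hK0 : 0 ≤ K := by rw [hK, latK]; positivity
  obtain ⟨hβ, hγ⟩ := frame_bounds A b hb0 hb1
  have hs2 : s ^ 2 ≤ L ^ 2 := by
    rw [← sq_abs s]
    exact pow_le_pow_left₀ (abs_nonneg _) hs 2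
  have hprodeq : (s * γ) * (s * β) = s ^ 2 * (β * γ) := by ring
  have hdetA : β * γ = - LinearMap.det (A : E2 →ₗ[ℝ] E2) := hbg
  have hprod : 0 ≤ (s * γ) * (s * β) := by
    rw [hprodeq, hdetA]
    exact mul_nonneg (sq_nonneg _) (by linarith)
  have hsmall : m₀ ≤ 1 - (s * γ) * (s * β) := by
    rw [hprodeq, hdetA]
    have : L ^ 2 * LinearMap.det (A : E2 →ₗ[ℝ] E2) ≤ s ^ 2 * LinearMap.det (A : E2 →ₗ[ℝ] E2) :=
      mul_le_mul_of_nonpos_right hs2 hdet0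
    linarith
  have hb1' : |s * β| ≤ B := by
    rw [abs_mul]
    exact mul_le_mul hs (le_trans hβ hAn) (abs_nonneg _) hL.le
  have hb2' : |s * γ| ≤ B := by
    rw [abs_mul]
    exact mul_le_mul hs (le_trans hγ hAn) (abs_nonneg _) hL.le
  have hω0 : 0 ≤ ω := le_trans (norm_nonneg _) (hosc P (Metric.mem_closedBall_self (by positivity)))
  have hpP : ‖p - P‖ ≤ 2 * ℓ := norm_sub_le_of_mem_Qg hpQ hPQ
  have hKbd : 2 * (K + 1) * δ ≤ ℓ := by
    have : 2 * (K + 1) * δ ≤ 2 * (K + 2) * δ := by nlinarith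
    rw [hbd] at hbdℓ
    linarith
  -- the error estimate from the mean value inequality
  have herr : ∀ c', ‖p - c'‖ ≤ 2 * (K + 1) * δ → |s| * ‖V p - V c' - A (p - c')‖ ≤ κ * δ := by
    intro c' hc'
    have hconv : Convex ℝ (Metric.closedBall P (4 * ℓ)) := convex_closedBall _ _
    have hpb : p ∈ Metric.closedBall P (4 * ℓ) := by
      rw [Metric.mem_closedBall, dist_eq_norm]; linarith
    have hcb : c' ∈ Metric.closedBall P (4 * ℓ) := by
      rw [Metric.mem_closedBall, dist_eq_norm]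
      have : ‖c' - P‖ ≤ ‖c' - p‖ + ‖p - P‖ := by
        have h := norm_add_le (c' - p) (p - P)
        rwa [sub_add_sub_cancel] at h
      rw [norm_sub_rev c' p] at this
      linarith
    have hderiv : ∀ x ∈ Metric.closedBall P (4 * ℓ),
        HasFDerivWithinAt V (fderiv ℝ V x) (Metric.closedBall P (4 * ℓ)) x := by
      intro x hx
      have hxU : x ∈ U := hball hx
      have : DifferentiableAt ℝ V x :=
        (hV.contDiffAt (hU.mem_nhds hxU)).differentiableAt (by norm_num)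
      exact this.hasFDerivAt.hasFDerivWithinAt
    have hMV := hconv.norm_image_sub_le_of_norm_hasFDerivWithin_le' (φ := A) hderiv
      (fun x hx => hosc x hx) hcb hpb
    calc |s| * ‖V p - V c' - A (p - c')‖ ≤ L * (ω * ‖p - c'‖) :=
          mul_le_mul hs hMV (norm_nonneg _) hL.le
      _ ≤ L * (ω * (2 * (K + 1) * δ)) := by
          apply mul_le_mul_of_nonneg_left _ hL.le
          exact mul_le_mul_of_nonneg_left hc' hω0
      _ = (L * (ω * (2 * (K + 1)))) * δ := by ring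
      _ ≤ κ * δ := mul_le_mul_of_nonneg_right hω hδ.le
  obtain ⟨M, N, hMN, x, hx, y, hy, hxy⟩ :=
    local_cover b A β γ hb0 hb1 hm₀ hprod hsmall hb1' hb2' hδ hκ P p V herr
  refine ⟨M, N, ?_, ?_, x, hx, y, hy, hxy⟩
  · intro v hv
    have hv1 := norm_le_of_mem_tile b P hδ hv
    have hv2 : ‖v - p‖ ≤ ‖v - lat b P δ M N‖ + ‖lat b P δ M N - p‖ := by
      have h := norm_add_le (v - lat b P δ M N) (lat b P δ M N - p)
      rwa [sub_add_sub_cancel] at h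
    rw [norm_sub_rev (lat b P δ M N) p] at hv2
    apply mem_Wg_of_near hpQ
    rw [hbd]
    nlinarith
  · have h := norm_add_le (lat b P δ M N - p) (p - P)
    rw [sub_add_sub_cancel, norm_sub_rev (lat b P δ M N) p] at h
    linarith

end Patch

end Crest.Agent.Lib.CylV
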