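import Crest.Agent.Lib.CylV.Main
import Crest.Agent.Lib.Tet.Area

/-!
From a sheared square in the plane to a cylinder in three-space.
-/

set_option autoImplicit false

noncomputable section

namespace Crest.Agent.Lib.CylV

open scoped RealInnerProductSpace ENNReal
open Set MeasureTheory
open Crest.Agent.Lib.Tet

abbrev E3 := EuclideanSpace ℝ (Fin 3)

lemma inner3 (v w : E3) : ⟪v, w⟫ = v 0 * w 0 + v 1 * w 1 + v 2 * w 2 := by
  simp [PiLp.inner_apply, Fin.sum_univ_three]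
  ring

def Phi (h : ℝ) (ξ : E2) : E3 := !₂[0, ξ 0, h * ξ 1]
def dirv (h : ℝ) (g : E2) : E3 := !₂[1, g 0, h * g 1]
def dn (h : ℝ) (g : E2) : ℝ := Real.sqrt (1 + (g 0) ^ 2 + h ^ 2 * (g 1) ^ 2)
def uvec (h : ℝ) (g : E2) : E3 := (dn h g)⁻¹ • dirv h g
def prj (u w : E3) : E3 := w - ⟪w, u⟫ • u
def Psi (h : ℝ) (g : E2) (w : E3) : E2 := !₂[w 1 - w 0 * g 0, (w 2 - w 0 * (h * g 1)) / h]

lemma dn_pos (h : ℝ) (g : E2) : 0 < dn h g := Jf_denom_pos h g

lemma dn_sq (h : ℝ) (g : E2) : dn h g ^ 2 = 1 + (g 0) ^ 2 + h ^ 2 * (g 1) ^ 2 :=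
  Real.sq_sqrt (by positivity)

lemma dirv_inner_self (h : ℝ) (g : E2) : ⟪dirv h g, dirv h g⟫ = dn h g ^ 2 := by
  rw [inner3, dn_sq]
  simp [dirv]
  ring

lemma uvec_norm (h : ℝ) (g : E2) : ‖uvec h g‖ = 1 := by
  have hpos := dn_pos h g
  have h1 : ‖dirv h g‖ = dn h g := by
    have h2 : ‖dirv h g‖ ^ 2 = dn h g ^ 2 := by
      rw [← real_inner_self_eq_norm_sq, dirv_inner_self]
    exact (pow_left_inj₀ (norm_nonneg _) hpos.le (by norm_num)).1 h2
  rw [uvec, norm_smul, h1, norm_inv, Real.norm_of_nonneg hpos.le]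
  field_simp

lemma dirv_eq (h : ℝ) (g : E2) : dirv h g = dn h g • uvec h g := by
  have hpos := dn_pos h g
  rw [uvec, smul_smul, mul_inv_cancel₀ hpos.ne', one_smul]

lemma inner_self_u {u : E3} (hu : ‖u‖ = 1) : ⟪u, u⟫ = 1 := by
  rw [real_inner_self_eq_norm_sq, hu]; norm_num

lemma prj_inner {u : E3} (hu : ‖u‖ = 1) (w : E3) : ⟪prj u w, u⟫ = 0 := by
  rw [prj, inner_sub_left, inner_smul_left, inner_self_u hu]
  simp

lemma prj_inner_prj {u : E3} (hu : ‖u‖ = 1) (v w : E3) :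
    ⟪prj u v, prj u w⟫ = ⟪v, w⟫ - ⟪v, u⟫ * ⟪w, u⟫ := by
  simp only [prj, inner_sub_left, inner_sub_right, inner_smul_left, inner_smul_right,
    inner_self_u hu, real_inner_comm v u, real_inner_comm w u, conj_trivial]
  ring

lemma prj_add (u v w : E3) : prj u (v + w) = prj u v + prj u w := by
  simp only [prj, inner_add_left, add_smul]
  abel

lemma prj_smul (u : E3) (r : ℝ) (w : E3) : prj u (r • w) = r • prj u w := by
  simp only [prj, inner_smul_left, smul_sub, smul_smul]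
  simp

lemma prj_self {u : E3} (hu : ‖u‖ = 1) : prj u u = 0 := by
  rw [prj, inner_self_u hu, one_smul, sub_self]

lemma prj_of_inner {u w : E3} (hw : ⟪w, u⟫ = 0) : prj u w = w := by
  rw [prj, hw, zero_smul, sub_zero]

lemma Phi_add (h : ℝ) (v w : E2) : Phi h (v + w) = Phi h v + Phi h w := by
  ext i
  fin_cases i <;> simp [Phi]
  ring

lemma Phi_smul (h r : ℝ) (w : E2) : Phi h (r • w) = r • Phi h w := by
  ext i
  fin_cases i <;> simp [Phi]
  ring

lemma Psi_Phi_add {h : ℝ} (hh : h ≠ 0) (g ξ : E2) (r : ℝ) :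
    Psi h g (Phi h ξ + r • dirv h g) = ξ := by
  ext i
  fin_cases i
  · simp [Psi, Phi, dirv]
  · simp [Psi, Phi, dirv]
    field_simp

lemma decomp {h : ℝ} (hh : h ≠ 0) (g : E2) (w : E3) :
    w = Phi h (Psi h g w) + (w 0) • dirv h g := by
  ext i
  fin_cases i
  · simp [Psi, Phi, dirv]
  · simp [Psi, Phi, dirv]
  · simp [Psi, Phi, dirv]
    field_simp
    ring

/-- The plane map followed by the orthogonal projection. -/
def PiM (h : ℝ) (g ξ : E2) : E3 := prj (uvec h g) (Phi h ξ)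

lemma PiM_affine (h : ℝ) (g c a b : E2) (s t : ℝ) :
    PiM h g (c + s • a + t • b) = PiM h g c + s • PiM h g a + t • PiM h g b := by
  simp only [PiM, Phi_add, Phi_smul, prj_add, prj_smul]

lemma PiM_eq (h : ℝ) (g ξ : E2) :
    PiM h g ξ = Phi h ξ + (-(⟪Phi h ξ, uvec h g⟫ * (dn h g)⁻¹)) • dirv h g := by
  have hpos := dn_pos h g
  rw [PiM, prj, uvec]
  rw [sub_eq_add_neg, neg_smul, ← neg_smul, ← smul_assoc]
  simp only [smul_eq_mul, neg_mul, neg_smul]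

lemma Psi_PiM {h : ℝ} (hh : h ≠ 0) (g ξ : E2) : Psi h g (PiM h g ξ) = ξ := by
  rw [PiM_eq, Psi_Phi_add hh]

lemma PiM_inner (h : ℝ) (g ξ : E2) : ⟪PiM h g ξ, uvec h g⟫ = 0 :=
  prj_inner (uvec_norm h g) _

/-- The Gram determinant of the projected frame. -/
lemma gram_PiM {h : ℝ} (hh : 0 < h) (g a b : E2) :
    gram (PiM h g a) (PiM h g b) = h ^ 2 * (a 0 * b 1 - a 1 * b 0) ^ 2 / dn h g ^ 2 := by
  have hpos := dn_pos h g
  have hu := uvec_norm h g
  have h1 : ‖PiM h g a‖ ^ 2 = ⟪Phi h a, Phi h a⟫ - ⟪Phi h a, uvec h g⟫ ^ 2 := by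
    rw [← real_inner_self_eq_norm_sq, PiM, prj_inner_prj hu]; ring
  have h2 : ‖PiM h g b‖ ^ 2 = ⟪Phi h b, Phi h b⟫ - ⟪Phi h b, uvec h g⟫ ^ 2 := by
    rw [← real_inner_self_eq_norm_sq, PiM, prj_inner_prj hu]; ring
  have h3 : ⟪PiM h g a, PiM h g b⟫ = ⟪Phi h a, Phi h b⟫ - ⟪Phi h a, uvec h g⟫ * ⟪Phi h b, uvec h g⟫ := by
    rw [PiM, PiM, prj_inner_prj hu]
  have hin : ∀ ξ : E2, ⟪Phi h ξ, uvec h g⟫ = (ξ 0 * g 0 + h ^ 2 * ξ 1 * g 1) / dn h g := by
    intro ξ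
    rw [uvec, inner_smul_right, inner3]
    simp [Phi, dirv]
    field_simp
  have hPP : ∀ ξ η : E2, ⟪Phi h ξ, Phi h η⟫ = ξ 0 * η 0 + h ^ 2 * (ξ 1 * η 1) := by
    intro ξ η
    rw [inner3]
    simp [Phi]
    ring
  rw [gram, h1, h2, h3, hin a, hin b, hPP, hPP, hPP]
  have hd := dn_sq h g
  field_simp
  rw [hd]
  ring

/-- Expansion in a planar orthogonal frame of equal length. -/
lemma expand_frame {a b : E2} (ha : a ≠ 0) (hb : ‖b‖ = ‖a‖) (hab : ⟪a, b⟫ = 0) (v : E2) :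
    v = (⟪a, v⟫ / ‖a‖ ^ 2) • a + (⟪b, v⟫ / ‖a‖ ^ 2) • b := by
  have hpos : 0 < ‖a‖ := norm_pos_iff.2 ha
  have hn : ‖a‖ ^ 2 = a 0 ^ 2 + a 1 ^ 2 := by
    rw [← real_inner_self_eq_norm_sq, inner_eq]; ring
  have hnb : ‖a‖ ^ 2 = b 0 ^ 2 + b 1 ^ 2 := by
    rw [← hb, ← real_inner_self_eq_norm_sq, inner_eq]; ring
  have hab' : a 0 * b 0 + a 1 * b 1 = 0 := by rw [← inner_eq]; exact hab
  have hne : ‖a‖ ^ 2 ≠ 0 := by positivity
  set n := ‖a‖ ^ 2 with hndef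
  have e1 : a 0 ^ 2 + b 0 ^ 2 = n := by
    have : n * (b 0 ^ 2 - a 1 ^ 2) = 0 := by
      linear_combination (b 0 ^ 2) * hn - (a 1 ^ 2) * hnb + (a 0 * b 0 - a 1 * b 1) * hab'
    have h2 : b 0 ^ 2 - a 1 ^ 2 = 0 := (mul_eq_zero.1 this).resolve_left hne
    rw [hn]; linarith
  have e2 : a 1 ^ 2 + b 1 ^ 2 = n := by
    have h3 := hnb
    linarith
  have e3 : a 0 * a 1 + b 0 * b 1 = 0 := by
    have : n * (a 0 * a 1 + b 0 * b 1) = 0 := by
      linear_combination (a 0 * a 1) * hnb + (b 0 * b 1) * hn + (a 1 * b 0 + a 0 * b 1) * hab'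
    exact (mul_eq_zero.1 this).resolve_left hne
  have h0 : v 0 = (⟪a, v⟫ / n) * a 0 + (⟪b, v⟫ / n) * b 0 := by
    rw [inner_eq, inner_eq]
    field_simp
    linear_combination (-(v 0)) * e1 - (v 1) * e3
  have h1 : v 1 = (⟪a, v⟫ / n) * a 1 + (⟪b, v⟫ / n) * b 1 := by
    rw [inner_eq, inner_eq]
    field_simp
    linear_combination (-(v 1)) * e2 - (v 0) * e3
  ext i
  fin_cases i
  · simpa using h0
  · simpa using h1

/-- Inner product with the frame vectors. -/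
lemma inner_frame_left {a b : E2} (hab : ⟪a, b⟫ = 0) (s t : ℝ) :
    ⟪a, s • a + t • b⟫ = s * ‖a‖ ^ 2 := by
  rw [inner_add_right, inner_smul_right, inner_smul_right, hab, real_inner_self_eq_norm_sq]
  ring

lemma inner_frame_right {a b : E2} (hb : ‖b‖ = ‖a‖) (hab : ⟪a, b⟫ = 0) (s t : ℝ) :
    ⟪b, s • a + t • b⟫ = t * ‖a‖ ^ 2 := by
  rw [inner_add_right, inner_smul_right, inner_smul_right, real_inner_comm, hab,
    real_inner_self_eq_norm_sq, hb]
  ring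

lemma continuous_Psi (h : ℝ) (g : E2) : Continuous (Psi h g) := by
  unfold Psi
  refine (PiLp.continuous_toLp 2 _).comp ?_
  refine continuous_pi fun i => ?_
  fin_cases i
  · simp only [Matrix.cons_val_zero, Fin.zero_eta]
    fun_prop
  · simp only [Fin.mk_one, Matrix.cons_val_one, Matrix.cons_val_zero]
    fun_prop

/-- **One sheared square gives one cylinder.** -/
theorem single_cylinder {h θ : ℝ} (hh : 0 < h) (hθ : 0 < θ) (c a b g : E2) (ha : a ≠ 0)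
    (hb : ‖b‖ = ‖a‖) (hab : ⟪a, b⟫ = 0) :
    ∃ (u : E3) (B : Set E3), ‖u‖ = 1 ∧
      (Bornology.IsBounded B ∧ ∃ O : Set E3, IsOpen O ∧ B = O ∩ {x | inner ℝ x u = 0}) ∧
      (∀ x X Y : ℝ, X ∈ Icc (0 : ℝ) 1 → Y ∈ Icc (0 : ℝ) 1 →
        ∃ y ∈ B, ∃ τ : ℝ, (!₂[x, (c + X • a + Y • b + x • g) 0,
          h * (c + X • a + Y • b + x • g) 1] : E3) = y + τ • u) ∧
      (μHE[2] B).toReal ≤
        (1 + 2 * θ) ^ 2 * (h * (‖a‖ ^ 2 / Real.sqrt (1 + (g 0) ^ 2 + h ^ 2 * (g 1) ^ 2))) := by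
  have hh' : h ≠ 0 := hh.ne'
  have hapos : 0 < ‖a‖ := norm_pos_iff.2 ha
  have hn : ‖a‖ ^ 2 ≠ 0 := by positivity
  have hdpos := dn_pos h g
  set u := uvec h g with hudef
  have hu : ‖u‖ = 1 := uvec_norm h g
  set c' := PiM h g c with hc'
  set a' := PiM h g a with ha'
  set b' := PiM h g b with hb'
  let B : Set E3 := {x | ∃ s ∈ Ioo (-θ) (1 + θ), ∃ t ∈ Ioo (-θ) (1 + θ), x = c' + s • a' + t • b'}
  have hΔ : (a 0 * b 1 - a 1 * b 0) ^ 2 = (‖a‖ ^ 2) ^ 2 := by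
    have hn1 : ‖a‖ ^ 2 = a 0 ^ 2 + a 1 ^ 2 := by
      rw [← real_inner_self_eq_norm_sq, inner_eq]; ring
    have hn2 : ‖a‖ ^ 2 = b 0 ^ 2 + b 1 ^ 2 := by
      rw [← hb, ← real_inner_self_eq_norm_sq, inner_eq]; ring
    have hab' : a 0 * b 0 + a 1 * b 1 = 0 := by rw [← inner_eq]; exact hab
    have e : (a 0 * b 1 - a 1 * b 0) ^ 2 + (a 0 * b 0 + a 1 * b 1) ^ 2 =
        (a 0 ^ 2 + a 1 ^ 2) * (b 0 ^ 2 + b 1 ^ 2) := by ring
    rw [hab', ← hn1, ← hn2] at e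
    linarith
  have hgram : gram a' b' = (h * (‖a‖ ^ 2 / dn h g)) ^ 2 := by
    rw [ha', hb', gram_PiM hh, hΔ]
    field_simp
  have hgrampos : 0 < gram a' b' := by
    rw [hgram]
    positivity
  have hsqrt : Real.sqrt (gram a' b') = h * (‖a‖ ^ 2 / dn h g) := by
    rw [hgram, Real.sqrt_sq (by positivity)]
  refine ⟨u, B, hu, ⟨?_, ?_⟩, ?_, ?_⟩
  · -- bounded
    refine isBounded_iff_forall_norm_le.2 ⟨‖c'‖ + (1 + θ) * ‖a'‖ + (1 + θ) * ‖b'‖, ?_⟩
    rintro x ⟨s, hs, t, ht, rfl⟩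
    have hs' : |s| ≤ 1 + θ := by
      rw [abs_le]; constructor <;> linarith [hs.1, hs.2]
    have ht' : |t| ≤ 1 + θ := by
      rw [abs_le]; constructor <;> linarith [ht.1, ht.2]
    calc ‖c' + s • a' + t • b'‖ ≤ ‖c' + s • a'‖ + ‖t • b'‖ := norm_add_le _ _
      _ ≤ ‖c'‖ + ‖s • a'‖ + ‖t • b'‖ := by gcongr; exact norm_add_le _ _
      _ = ‖c'‖ + |s| * ‖a'‖ + |t| * ‖b'‖ := by
          rw [norm_smul, norm_smul, Real.norm_eq_abs, Real.norm_eq_abs]
      _ ≤ ‖c'‖ + (1 + θ) * ‖a'‖ + (1 + θ) * ‖b'‖ := by gcongr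
  · -- open
    let sc : E3 → ℝ := fun w => ⟪a, Psi h g w - c⟫ / ‖a‖ ^ 2
    let tc : E3 → ℝ := fun w => ⟪b, Psi h g w - c⟫ / ‖a‖ ^ 2
    have hsc : Continuous sc := by
      have := continuous_Psi h g
      fun_prop
    have htc : Continuous tc := by
      have := continuous_Psi h g
      fun_prop
    refine ⟨sc ⁻¹' Ioo (-θ) (1 + θ) ∩ tc ⁻¹' Ioo (-θ) (1 + θ),
      (isOpen_Ioo.preimage hsc).inter (isOpen_Ioo.preimage htc), ?_⟩
    ext w
    constructor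
    · rintro ⟨s, hs, t, ht, rfl⟩
      have hw : c' + s • a' + t • b' = PiM h g (c + s • a + t • b) := by
        rw [PiM_affine]
      have hv : Psi h g (c' + s • a' + t • b') - c = s • a + t • b := by
        rw [hw, Psi_PiM hh']
        abel
      refine ⟨⟨?_, ?_⟩, ?_⟩
      · show sc (c' + s • a' + t • b') ∈ Ioo (-θ) (1 + θ)
        simp only [sc]
        rw [hv, inner_frame_left hab]
        field_simp
        exact hs
      · show tc (c' + s • a' + t • b') ∈ Ioo (-θ) (1 + θ)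
        simp only [tc]
        rw [hv, inner_frame_right hb hab]
        field_simp
        exact ht
      · show ⟪c' + s • a' + t • b', u⟫ = 0
        rw [hw]
        exact PiM_inner h g _
    · rintro ⟨⟨hs, ht⟩, hw⟩
      have hw' : ⟪w, u⟫ = 0 := hw
      refine ⟨sc w, hs, tc w, ht, ?_⟩
      have hexp := expand_frame ha hb hab (Psi h g w - c)
      have hPsi : Psi h g w = c + sc w • a + tc w • b := by
        have e : Psi h g w = c + (Psi h g w - c) := by abel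
        rw [e, add_assoc]
        exact congrArg (c + ·) hexp
      have h1 : prj u w = w := prj_of_inner hw'
      have h2 : prj u (dirv h g) = 0 := by
        rw [dirv_eq, prj_smul, prj_self hu, smul_zero]
      have hdec := decomp hh' g w
      have h3 : w = PiM h g (Psi h g w) := by
        calc w = prj u w := h1.symm
          _ = prj u (Phi h (Psi h g w) + (w 0) • dirv h g) := by rw [← hdec]
          _ = PiM h g (Psi h g w) := by
              rw [prj_add, prj_smul, h2, smul_zero, add_zero]; rfl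
      rw [hPsi, PiM_affine] at h3
      exact h3
  · -- the cover
    intro x X Y hX hY
    set ζ := c + X • a + Y • b with hζ
    refine ⟨PiM h g ζ, ⟨X, ⟨by linarith [hX.1], by linarith [hX.2]⟩,
      Y, ⟨by linarith [hY.1], by linarith [hY.2]⟩, by rw [hζ, PiM_affine]⟩,
      ⟪Phi h ζ, u⟫ + x * dn h g, ?_⟩
    have e1 : (!₂[x, (ζ + x • g) 0, h * (ζ + x • g) 1] : E3) = Phi h ζ + x • dirv h g := by
      ext i
      fin_cases i
      · simp [Phi, dirv]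
      · simp [Phi, dirv]
      · simp [Phi, dirv]
        ring
    rw [e1, dirv_eq, add_smul, PiM, prj, mul_smul]
    abel
  · -- the area
    have harea := area_open_parallelogram c' a' b' hgrampos θ hθ.le
    have h0 : 0 ≤ (1 + 2 * θ) ^ 2 * Real.sqrt (gram a' b') := by positivity
    have hB : μHE[2] B = ENNReal.ofReal ((1 + 2 * θ) ^ 2 * Real.sqrt (gram a' b')) := harea
    rw [hB, ENNReal.toReal_ofReal h0, hsqrt]
    rfl

end Crest.Agent.Lib.CylV
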