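import Mathlib

/-!
Orthonormal frames in which a traceless `2 × 2` map has zero diagonal.
-/

set_option autoImplicit false

noncomputable section

namespace Crest.Agent.Lib.CylV

open scoped RealInnerProductSpace

/-- The plane. -/
abbrev E2 : Type := EuclideanSpace ℝ (Fin 2)

/-- Standard basis vectors of the plane. -/
def e0 : E2 := EuclideanSpace.single 0 1
def e1 : E2 := EuclideanSpace.single 1 1

lemma e0_apply0 : e0 0 = 1 := by simp [e0]
lemma e0_apply1 : e0 1 = 0 := by simp [e0]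
lemma e1_apply0 : e1 0 = 0 := by simp [e1]
lemma e1_apply1 : e1 1 = 1 := by simp [e1]

lemma eq_comb (v : E2) : v = v 0 • e0 + v 1 • e1 := by
  ext i
  fin_cases i <;> simp [e0, e1]

lemma inner_eq (v w : E2) : ⟪v, w⟫ = v 0 * w 0 + v 1 * w 1 := by
  simp [PiLp.inner_apply, Fin.sum_univ_two]
  ring

lemma trace_eq (A : E2 →L[ℝ] E2) :
    LinearMap.trace ℝ E2 (A : E2 →ₗ[ℝ] E2) = A e0 0 + A e1 1 := by
  rw [LinearMap.trace_eq_matrix_trace ℝ (EuclideanSpace.basisFun (Fin 2) ℝ).toBasis]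
  simp [Matrix.trace, Fin.sum_univ_two, LinearMap.toMatrix_apply, e0, e1]

lemma det_eq (A : E2 →L[ℝ] E2) :
    LinearMap.det (A : E2 →ₗ[ℝ] E2) = A e0 0 * A e1 1 - A e1 0 * A e0 1 := by
  rw [← LinearMap.det_toMatrix (EuclideanSpace.basisFun (Fin 2) ℝ).toBasis, Matrix.det_fin_two]
  simp [LinearMap.toMatrix_apply, e0, e1]

/-- Frame from an explicit rotation. -/
lemma frame_of_cs (A : E2 →L[ℝ] E2) (htr : A e0 0 + A e1 1 = 0) (c s : ℝ) (hcs : c ^ 2 + s ^ 2 = 1)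
    (hq : A e0 0 * c ^ 2 + (A e1 0 + A e0 1) * (s * c) + A e1 1 * s ^ 2 = 0) :
    ∃ (b : OrthonormalBasis (Fin 2) ℝ E2) (β γ : ℝ), A (b 0) = γ • b 1 ∧ A (b 1) = β • b 0 ∧
      β * γ = - (A e0 0 * A e1 1 - A e1 0 * A e0 1) := by
  obtain ⟨a00, ha00⟩ : ∃ x, x = A e0 0 := ⟨_, rfl⟩
  obtain ⟨a01, ha01⟩ : ∃ x, x = A e1 0 := ⟨_, rfl⟩
  obtain ⟨a10, ha10⟩ : ∃ x, x = A e0 1 := ⟨_, rfl⟩
  obtain ⟨a11, ha11⟩ : ∃ x, x = A e1 1 := ⟨_, rfl⟩
  rw [← ha00, ← ha11] at htr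
  rw [← ha00, ← ha01, ← ha10, ← ha11] at hq ⊢
  have h11 : a11 = -a00 := by linarith
  obtain ⟨f0, hf0⟩ : ∃ f : E2, f = c • e0 + s • e1 := ⟨_, rfl⟩
  obtain ⟨f1, hf1⟩ : ∃ f : E2, f = (-s) • e0 + c • e1 := ⟨_, rfl⟩
  have f00 : f0 0 = c := by simp [hf0, e0_apply0, e1_apply0]
  have f01 : f0 1 = s := by simp [hf0, e0_apply1, e1_apply1]
  have f10 : f1 0 = -s := by simp [hf1, e0_apply0, e1_apply0]
  have f11 : f1 1 = c := by simp [hf1, e0_apply1, e1_apply1]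
  have hon : Orthonormal ℝ ![f0, f1] := by
    have h00 : ⟪f0, f0⟫ = 1 := by rw [inner_eq, f00, f01]; nlinarith
    have h01 : ⟪f0, f1⟫ = 0 := by rw [inner_eq, f00, f01, f10, f11]; ring
    have h10 : ⟪f1, f0⟫ = 0 := by rw [inner_eq, f00, f01, f10, f11]; ring
    have h11' : ⟪f1, f1⟫ = 1 := by rw [inner_eq, f10, f11]; nlinarith
    rw [orthonormal_iff_ite]
    rw [Fin.forall_fin_two]
    constructor <;> rw [Fin.forall_fin_two] <;> constructor
    · show ⟪f0, f0⟫ = _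
      rw [h00]; simp
    · show ⟪f0, f1⟫ = _
      rw [h01]; simp
    · show ⟪f1, f0⟫ = _
      rw [h10]; simp
    · show ⟪f1, f1⟫ = _
      rw [h11']; simp
  have hsp : (⊤ : Submodule ℝ E2) ≤ Submodule.span ℝ (Set.range ![f0, f1]) := by
    have h := hon.linearIndependent.span_eq_top_of_card_eq_finrank (by simp)
    rw [h]
  obtain ⟨b, hb⟩ : ∃ b : OrthonormalBasis (Fin 2) ℝ E2, b = OrthonormalBasis.mk hon hsp := ⟨_, rfl⟩
  have hb0 : b 0 = f0 := by rw [hb]; simp [OrthonormalBasis.coe_mk]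
  have hb1 : b 1 = f1 := by rw [hb]; simp [OrthonormalBasis.coe_mk]
  have hAf0 : A f0 = c • A e0 + s • A e1 := by simp [hf0, map_add, map_smul]
  have hAf1 : A f1 = (-s) • A e0 + c • A e1 := by simp [hf1, map_add, map_smul]
  have hAf00 : (A f0) 0 = c * a00 + s * a01 := by rw [hAf0, ha00, ha01]; simp
  have hAf01 : (A f0) 1 = c * a10 + s * a11 := by rw [hAf0, ha10, ha11]; simp
  have hAf10 : (A f1) 0 = -s * a00 + c * a01 := by rw [hAf1, ha00, ha01]; simp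
  have hAf11 : (A f1) 1 = -s * a10 + c * a11 := by rw [hAf1, ha10, ha11]; simp
  have hzero0 : ⟪A f0, f0⟫ = 0 := by
    rw [inner_eq, hAf00, hAf01, f00, f01]
    linear_combination hq
  have hzero1 : ⟪A f1, f1⟫ = 0 := by
    rw [inner_eq, hAf10, hAf11, f10, f11, h11]
    rw [h11] at hq
    have h2 : s ^ 2 = 1 - c ^ 2 := by linarith
    nlinarith
  have hexp : ∀ v : E2, v = ⟪v, f0⟫ • f0 + ⟪v, f1⟫ • f1 := by
    intro v
    have h := b.sum_repr v
    rw [Fin.sum_univ_two] at h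
    simp only [OrthonormalBasis.repr_apply_apply, hb0, hb1] at h
    rw [real_inner_comm f0 v, real_inner_comm f1 v]
    exact h.symm
  refine ⟨b, ⟪A f1, f0⟫, ⟪A f0, f1⟫, ?_, ?_, ?_⟩
  · rw [hb0, hb1]
    have h := hexp (A f0)
    rw [hzero0, zero_smul, zero_add] at h
    exact h
  · rw [hb0, hb1]
    have h := hexp (A f1)
    rw [hzero1, zero_smul, add_zero] at h
    exact h
  · -- determinant identity
    have hid : ⟪A f0, f0⟫ * ⟪A f1, f1⟫ - ⟪A f1, f0⟫ * ⟪A f0, f1⟫ =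
        (c ^ 2 + s ^ 2) ^ 2 * (a00 * a11 - a01 * a10) := by
      simp only [inner_eq, hAf00, hAf01, hAf10, hAf11, f00, f01, f10, f11]
      ring
    rw [hzero0, hzero1, hcs] at hid
    linarith

/-- The frame: there is an orthonormal basis in which a traceless map has zero diagonal. -/
theorem exists_frame (A : E2 →L[ℝ] E2) (htr : LinearMap.trace ℝ E2 (A : E2 →ₗ[ℝ] E2) = 0) :
    ∃ (b : OrthonormalBasis (Fin 2) ℝ E2) (β γ : ℝ), A (b 0) = γ • b 1 ∧ A (b 1) = β • b 0 ∧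
      β * γ = - LinearMap.det (A : E2 →ₗ[ℝ] E2) := by
  rw [trace_eq] at htr
  rw [det_eq]
  -- the quadratic form along the rotating vector
  have hqc : Continuous fun θ : ℝ => A e0 0 * Real.cos θ ^ 2 +
      (A e1 0 + A e0 1) * (Real.sin θ * Real.cos θ) + A e1 1 * Real.sin θ ^ 2 := by
    fun_prop
  have h11 : A e1 1 = - A e0 0 := by linarith
  obtain ⟨θ, hθ⟩ : ∃ θ : ℝ, A e0 0 * Real.cos θ ^ 2 +
      (A e1 0 + A e0 1) * (Real.sin θ * Real.cos θ) + A e1 1 * Real.sin θ ^ 2 = 0 := by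
    rcases le_total (A e0 0) 0 with h | h
    · have := intermediate_value_Icc (by positivity : (0 : ℝ) ≤ Real.pi / 2) hqc.continuousOn
      have h0 : (0 : ℝ) ∈ Set.Icc ((fun θ : ℝ => A e0 0 * Real.cos θ ^ 2 +
          (A e1 0 + A e0 1) * (Real.sin θ * Real.cos θ) + A e1 1 * Real.sin θ ^ 2) 0)
          ((fun θ : ℝ => A e0 0 * Real.cos θ ^ 2 +
          (A e1 0 + A e0 1) * (Real.sin θ * Real.cos θ) + A e1 1 * Real.sin θ ^ 2) (Real.pi / 2)) := by
        simp [h11]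
        exact h
      obtain ⟨x, _, hx⟩ := this h0
      exact ⟨x, hx⟩
    · have := intermediate_value_Icc' (by positivity : (0 : ℝ) ≤ Real.pi / 2) hqc.continuousOn
      have h0 : (0 : ℝ) ∈ Set.Icc ((fun θ : ℝ => A e0 0 * Real.cos θ ^ 2 +
          (A e1 0 + A e0 1) * (Real.sin θ * Real.cos θ) + A e1 1 * Real.sin θ ^ 2) (Real.pi / 2))
          ((fun θ : ℝ => A e0 0 * Real.cos θ ^ 2 +
          (A e1 0 + A e0 1) * (Real.sin θ * Real.cos θ) + A e1 1 * Real.sin θ ^ 2) 0) := by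
        simp [h11]
        exact h
      obtain ⟨x, _, hx⟩ := this h0
      exact ⟨x, hx⟩
  exact frame_of_cs A htr (Real.cos θ) (Real.sin θ) (Real.cos_sq_add_sin_sq θ) hθ

lemma frame_bounds (A : E2 →L[ℝ] E2) (b : OrthonormalBasis (Fin 2) ℝ E2) {β γ : ℝ}
    (h0 : A (b 0) = γ • b 1) (h1 : A (b 1) = β • b 0) : |β| ≤ ‖A‖ ∧ |γ| ≤ ‖A‖ := by
  have hn : ∀ i, ‖b i‖ = 1 := fun i => b.orthonormal.1 i
  constructor
  · have := A.le_opNorm (b 1)
    rw [h1, norm_smul, hn, hn] at this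
    simpa using this
  · have := A.le_opNorm (b 0)
    rw [h0, norm_smul, hn, hn] at this
    simpa using this

end Crest.Agent.Lib.CylV
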