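import Crest.Agent.Lib.CylV.Tile

/-!
The grid of big squares.
-/

set_option autoImplicit false

noncomputable section

namespace Crest.Agent.Lib.CylV

open scoped RealInnerProductSpace ENNReal
open Set MeasureTheory

/-- Half-open grid squares. -/
def Qg (ℓ : ℝ) (g : ℤ × ℤ) : Set E2 :=
  rect ((g.1 : ℝ) * ℓ) (((g.1 : ℝ) + 1) * ℓ) ((g.2 : ℝ) * ℓ) (((g.2 : ℝ) + 1) * ℓ)

/-- Enlarged grid squares. -/
def Wg (ℓ bd : ℝ) (g : ℤ × ℤ) : Set E2 :=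
  rect ((g.1 : ℝ) * ℓ - bd) (((g.1 : ℝ) + 1) * ℓ + bd) ((g.2 : ℝ) * ℓ - bd) (((g.2 : ℝ) + 1) * ℓ + bd)

lemma measurableSet_Qg (ℓ : ℝ) (g : ℤ × ℤ) : MeasurableSet (Qg ℓ g) := measurableSet_rect _ _ _ _

lemma volume_Qg {ℓ : ℝ} (hℓ : 0 < ℓ) (g : ℤ × ℤ) : volume (Qg ℓ g) = ENNReal.ofReal (ℓ ^ 2) := by
  rw [Qg, volume_rect, ← ENNReal.ofReal_mul (by nlinarith)]
  congr 1
  ring

lemma volume_Wg {ℓ bd : ℝ} (hℓ : 0 < ℓ) (hbd : 0 ≤ bd) (g : ℤ × ℤ) :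
    volume (Wg ℓ bd g) = ENNReal.ofReal ((ℓ + 2 * bd) ^ 2) := by
  rw [Wg, volume_rect, ← ENNReal.ofReal_mul (by nlinarith)]
  congr 1
  ring

lemma Qg_disjoint {ℓ : ℝ} (hℓ : 0 < ℓ) {g g' : ℤ × ℤ} (h : g ≠ g') :
    Disjoint (Qg ℓ g) (Qg ℓ g') := by
  rw [Set.disjoint_left]
  intro v hv hv'
  exact h (Prod.ext (int_eq_of_mem_Ico hℓ hv.1 hv'.1) (int_eq_of_mem_Ico hℓ hv.2 hv'.2))

lemma exists_mem_Qg {ℓ : ℝ} (hℓ : 0 < ℓ) (p : E2) : ∃ g, p ∈ Qg ℓ g := by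
  refine ⟨(⌊p 0 / ℓ⌋, ⌊p 1 / ℓ⌋), ?_, ?_⟩
  · constructor
    · have := Int.floor_le (p 0 / ℓ)
      rwa [le_div_iff₀ hℓ] at this
    · have := Int.lt_floor_add_one (p 0 / ℓ)
      rwa [div_lt_iff₀ hℓ] at this
  · constructor
    · have := Int.floor_le (p 1 / ℓ)
      rwa [le_div_iff₀ hℓ] at this
    · have := Int.lt_floor_add_one (p 1 / ℓ)
      rwa [div_lt_iff₀ hℓ] at this

lemma abs_coord_le_norm (v : E2) (i : Fin 2) : |v i| ≤ ‖v‖ := by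
  have := PiLp.norm_apply_le v i
  simpa using this

lemma norm_le_abs_add_abs (v : E2) : ‖v‖ ≤ |v 0| + |v 1| := by
  have h : v = v 0 • e0 + v 1 • e1 := eq_comb v
  calc ‖v‖ = ‖v 0 • e0 + v 1 • e1‖ := by rw [← h]
    _ ≤ ‖v 0 • e0‖ + ‖v 1 • e1‖ := norm_add_le _ _
    _ = |v 0| + |v 1| := by
      rw [norm_smul, norm_smul]
      simp [e0, e1]

lemma norm_sub_le_of_mem_Qg {ℓ : ℝ} {g : ℤ × ℤ} {x y : E2} (hx : x ∈ Qg ℓ g) (hy : y ∈ Qg ℓ g) :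
    ‖x - y‖ ≤ 2 * ℓ := by
  have h1 := norm_le_abs_add_abs (x - y)
  have h2 : |(x - y) 0| ≤ ℓ := by
    have a1 := hx.1.1
    have a2 := hx.1.2
    have b1 := hy.1.1
    have b2 := hy.1.2
    simp only [PiLp.sub_apply]
    rw [abs_le]
    constructor <;> nlinarith
  have h3 : |(x - y) 1| ≤ ℓ := by
    have a1 := hx.2.1
    have a2 := hx.2.2
    have b1 := hy.2.1
    have b2 := hy.2.2
    simp only [PiLp.sub_apply]
    rw [abs_le]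
    constructor <;> nlinarith
  linarith

lemma mem_Wg_of_near {ℓ bd : ℝ} {g : ℤ × ℤ} {p v : E2} (hp : p ∈ Qg ℓ g) (hv : ‖v - p‖ < bd) :
    v ∈ Wg ℓ bd g := by
  have h0 : |(v - p) 0| < bd := lt_of_le_of_lt (abs_coord_le_norm _ _) hv
  have h1 : |(v - p) 1| < bd := lt_of_le_of_lt (abs_coord_le_norm _ _) hv
  simp only [PiLp.sub_apply] at h0 h1
  rw [abs_lt] at h0 h1
  have a1 := hp.1.1
  have a2 := hp.1.2
  have b1 := hp.2.1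
  have b2 := hp.2.2
  refine ⟨⟨?_, ?_⟩, ⟨?_, ?_⟩⟩ <;> linarith [h0.1, h0.2, h1.1, h1.2]

lemma norm_sub_le_of_mem_Wg {ℓ bd : ℝ} {g : ℤ × ℤ} {x y : E2} (hx : x ∈ Qg ℓ g)
    (hy : y ∈ Wg ℓ bd g) : ‖x - y‖ ≤ 2 * (ℓ + bd) := by
  have h1 := norm_le_abs_add_abs (x - y)
  have h2 : |(x - y) 0| ≤ ℓ + bd := by
    have a1 := hx.1.1
    have a2 := hx.1.2
    have b1 := hy.1.1
    have b2 := hy.1.2
    simp only [PiLp.sub_apply]
    rw [abs_le]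
    constructor <;> nlinarith
  have h3 : |(x - y) 1| ≤ ℓ + bd := by
    have a1 := hx.2.1
    have a2 := hx.2.2
    have b1 := hy.2.1
    have b2 := hy.2.2
    simp only [PiLp.sub_apply]
    rw [abs_le]
    constructor <;> nlinarith
  linarith

/-- Finitely many grid squares meet a bounded set. -/
lemma finite_grid {ℓ : ℝ} (hℓ : 0 < ℓ) {D : Set E2} (hD : Bornology.IsBounded D) :
    {g | (Qg ℓ g ∩ D).Nonempty}.Finite := by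
  obtain ⟨R, hR⟩ := hD.exists_norm_le
  have hR0 : ∀ p ∈ D, ∀ i : Fin 2, |p i| ≤ R := fun p hp i =>
    le_trans (abs_coord_le_norm p i) (hR p hp)
  set M : ℤ := ⌈R / ℓ⌉ + 1 with hM
  have hRl : R / ℓ ≤ (⌈R / ℓ⌉ : ℝ) := Int.le_ceil _
  refine Set.Finite.subset ((Set.finite_Icc (-M) M).prod (Set.finite_Icc (-M) M)) ?_
  rintro ⟨g1, g2⟩ ⟨p, hpQ, hpD⟩
  have key : ∀ (g : ℤ) (x : ℝ), x ∈ Ico ((g : ℝ) * ℓ) (((g : ℝ) + 1) * ℓ) → |x| ≤ R →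
      g ∈ Set.Icc (-M) M := by
    intro g x hx hxR
    have a1 := hx.1
    have a2 := hx.2
    rw [abs_le] at hxR
    have b1 : (g : ℝ) ≤ R / ℓ := by
      rw [le_div_iff₀ hℓ]; linarith
    have b2 : -(R / ℓ) - 1 < (g : ℝ) := by
      have : -R / ℓ < (g : ℝ) + 1 := by
        rw [div_lt_iff₀ hℓ]; linarith
      have h3 : -R / ℓ = -(R / ℓ) := by ring
      linarith
    constructor
    · have : ((-M : ℤ) : ℝ) ≤ g := by
        rw [hM]; push_cast; linarith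
      exact_mod_cast this
    · have : (g : ℝ) ≤ ((M : ℤ) : ℝ) := by
        rw [hM]; push_cast; linarith
      exact_mod_cast this
  exact ⟨key g1 (p 0) hpQ.1 (hR0 p hpD 0), key g2 (p 1) hpQ.2 (hR0 p hpD 1)⟩

end Crest.Agent.Lib.CylV
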