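import Mathlib

/-!
Lattice covering lemma: for `0 ≤ a * b < 1` the unit square translated by the lattice generated by
`(1, a)` and `(b, 1)` covers the plane.
-/

set_option autoImplicit false

namespace Crest.Agent.Lib.CylV

theorem lattice_cover (a b X Y : ℝ) (hab : 0 ≤ a * b) (hab1 : a * b < 1) :
    ∃ m n : ℤ, (m : ℝ) + n * b ≤ X ∧ X ≤ m + 1 + n * b ∧ (n : ℝ) + m * a ≤ Y ∧ Y ≤ n + 1 + m * a := by
  set μ : ℤ → ℤ := fun n => ⌊X - n * b⌋ with hμ
  set H : ℤ → ℝ := fun n => n + (μ n : ℝ) * a - Y with hH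
  have hc : 0 < 1 - a * b := by linarith
  have hfl : ∀ n : ℤ, (μ n : ℝ) ≤ X - n * b ∧ X - n * b < μ n + 1 := fun n =>
    ⟨Int.floor_le _, Int.lt_floor_add_one _⟩
  -- one-step bound
  have hstep : ∀ n : ℤ, H (n + 1) ≤ H n + 1 := by
    intro n
    have key : ((μ (n + 1) : ℝ) - μ n) * a ≤ 0 := by
      rcases lt_trichotomy a 0 with ha | ha | ha
      · have hb : b ≤ 0 := by
          by_contra hb
          push Not at hb
          nlinarith
        have : μ n ≤ μ (n + 1) := by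
          apply Int.floor_le_floor
          push_cast
          nlinarith
        have h' : (μ n : ℝ) ≤ μ (n + 1) := by exact_mod_cast this
        nlinarith
      · simp [ha]
      · have hb : 0 ≤ b := by
          by_contra hb
          push Not at hb
          nlinarith
        have : μ (n + 1) ≤ μ n := by
          apply Int.floor_le_floor
          push_cast
          nlinarith
        have h' : (μ (n + 1) : ℝ) ≤ μ n := by exact_mod_cast this
        nlinarith
    simp only [hH]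
    push_cast
    nlinarith
  -- growth estimate
  have hgrow : ∀ n : ℤ, |H n - (n * (1 - a * b) + X * a - Y)| ≤ |a| := by
    intro n
    have h1 := (hfl n).1
    have h2 := (hfl n).2
    have : H n - (n * (1 - a * b) + X * a - Y) = ((μ n : ℝ) - (X - n * b)) * a := by
      simp only [hH]; ring
    rw [this, abs_mul]
    have h3 : |(μ n : ℝ) - (X - n * b)| ≤ 1 := by
      rw [abs_le]; constructor <;> linarith
    nlinarith [abs_nonneg a]
  -- existence of a greatest n with H n ≤ 0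
  have hbdd : ∃ B : ℤ, ∀ z : ℤ, H z ≤ 0 → z ≤ B := by
    refine ⟨⌈(|a| + |X * a - Y|) / (1 - a * b)⌉, fun z hz => ?_⟩
    have h1 := (abs_le.1 (hgrow z)).1
    have h2 : (z : ℝ) * (1 - a * b) ≤ |a| + |X * a - Y| := by
      have := neg_abs_le (X * a - Y)
      linarith
    have h3 : (z : ℝ) ≤ (|a| + |X * a - Y|) / (1 - a * b) := by
      rw [le_div_iff₀ hc]; exact h2
    have h4 := Int.le_ceil ((|a| + |X * a - Y|) / (1 - a * b))
    have h5 : (z : ℝ) ≤ ((⌈(|a| + |X * a - Y|) / (1 - a * b)⌉ : ℤ) : ℝ) := le_trans h3 h4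
    exact_mod_cast h5
  have hinh : ∃ z : ℤ, H z ≤ 0 := by
    refine ⟨-⌈(|a| + |X * a - Y|) / (1 - a * b)⌉, ?_⟩
    set z : ℤ := -⌈(|a| + |X * a - Y|) / (1 - a * b)⌉ with hz
    have h1 := (abs_le.1 (hgrow z)).2
    have h4 := Int.le_ceil ((|a| + |X * a - Y|) / (1 - a * b))
    have h5 : (z : ℝ) = -((⌈(|a| + |X * a - Y|) / (1 - a * b)⌉ : ℤ) : ℝ) := by
      rw [hz]; push_cast; ring
    have h6 : (z : ℝ) ≤ -((|a| + |X * a - Y|) / (1 - a * b)) := by linarith
    have h7 : (z : ℝ) * (1 - a * b) ≤ -(|a| + |X * a - Y|) := by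
      have := mul_le_mul_of_nonneg_right h6 hc.le
      rw [neg_mul, div_mul_cancel₀ _ hc.ne'] at this
      exact this
    have h8 := le_abs_self (X * a - Y)
    linarith
  obtain ⟨n, hn, hmax⟩ := Int.exists_greatest_of_bdd hbdd hinh
  have hn1 : 0 < H (n + 1) := by
    by_contra hcon
    push Not at hcon
    have := hmax _ hcon
    omega
  have hstep' := hstep n
  refine ⟨μ n, n, ?_, ?_, ?_, ?_⟩
  · have := (hfl n).1; linarith
  · have := (hfl n).2; linarith
  · simp only [hH] at hn; linarith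
  · simp only [hH] at hn hn1 hstep'; push_cast at *; linarith

theorem lattice_bound (a b X Y : ℝ) (m n : ℤ) {m₀ B C : ℝ} (hm₀ : 0 < m₀) (hsmall : m₀ ≤ 1 - a * b)
    (ha : |a| ≤ B) (hb : |b| ≤ B) (hX : |X| ≤ C) (hY : |Y| ≤ C)
    (h1 : (m : ℝ) + n * b ≤ X) (h2 : X ≤ m + 1 + n * b) (h3 : (n : ℝ) + m * a ≤ Y)
    (h4 : Y ≤ n + 1 + m * a) :
    |(m : ℝ)| ≤ (C + 1) * (1 + B) / m₀ ∧ |(n : ℝ)| ≤ (C + 1) * (1 + B) / m₀ := by
  have hB : 0 ≤ B := le_trans (abs_nonneg _) ha
  have hC : 0 ≤ C := le_trans (abs_nonneg _) hX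
  set P : ℝ := m + n * b with hP
  set Q : ℝ := n + m * a with hQ
  have hPb : |P| ≤ C + 1 := by
    rw [abs_le] at hX ⊢; constructor <;> linarith
  have hQb : |Q| ≤ C + 1 := by
    rw [abs_le] at hY ⊢; constructor <;> linarith
  have hm : (m : ℝ) * (1 - a * b) = P - b * Q := by simp only [hP, hQ]; ring
  have hn : (n : ℝ) * (1 - a * b) = Q - a * P := by simp only [hP, hQ]; ring
  have hpos : 0 < 1 - a * b := lt_of_lt_of_le hm₀ hsmall
  have bd1 : |P - b * Q| ≤ (C + 1) * (1 + B) := by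
    calc |P - b * Q| ≤ |P| + |b * Q| := abs_sub _ _
      _ = |P| + |b| * |Q| := by rw [abs_mul]
      _ ≤ (C + 1) + B * (C + 1) := by
        have := mul_le_mul hb hQb (abs_nonneg _) hB
        linarith
      _ = (C + 1) * (1 + B) := by ring
  have bd2 : |Q - a * P| ≤ (C + 1) * (1 + B) := by
    calc |Q - a * P| ≤ |Q| + |a * P| := abs_sub _ _
      _ = |Q| + |a| * |P| := by rw [abs_mul]
      _ ≤ (C + 1) + B * (C + 1) := by
        have := mul_le_mul ha hPb (abs_nonneg _) hB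
        linarith
      _ = (C + 1) * (1 + B) := by ring
  constructor
  · rw [le_div_iff₀ hm₀]
    have h5 : |(m : ℝ)| * (1 - a * b) = |P - b * Q| := by
      rw [← hm, abs_mul, abs_of_pos hpos]
    have : |(m : ℝ)| * m₀ ≤ |(m : ℝ)| * (1 - a * b) :=
      mul_le_mul_of_nonneg_left hsmall (abs_nonneg _)
    linarith
  · rw [le_div_iff₀ hm₀]
    have h5 : |(n : ℝ)| * (1 - a * b) = |Q - a * P| := by
      rw [← hn, abs_mul, abs_of_pos hpos]
    have : |(n : ℝ)| * m₀ ≤ |(n : ℝ)| * (1 - a * b) :=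
      mul_le_mul_of_nonneg_left hsmall (abs_nonneg _)
    linarith

end Crest.Agent.Lib.CylV
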