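import Crest.Agent.Lib.CylV.Lattice
import Crest.Agent.Lib.CylV.Frame

/-!
The local covering statement: a lattice of slightly fattened squares, moving with the velocities of
their base points, covers the moving point `p + s V p`, provided `V` is close to linear near `p`
with a linearisation having zero diagonal in the frame of the lattice.
-/

set_option autoImplicit false

noncomputable section

namespace Crest.Agent.Lib.CylV

open scoped RealInnerProductSpace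
open Set

/-- Lattice points in a frame. -/
def lat (b : OrthonormalBasis (Fin 2) ℝ E2) (o : E2) (δ : ℝ) (M N : ℤ) : E2 :=
  o + ((M : ℝ) * δ) • b 0 + ((N : ℝ) * δ) • b 1

/-- The constant bounding the lattice offsets. -/
def latK (B m₀ : ℝ) : ℝ := ((1 + B) + 1) * (1 + B) / m₀

lemma frame_expand (b : OrthonormalBasis (Fin 2) ℝ E2) (v : E2) :
    v = ⟪b 0, v⟫ • b 0 + ⟪b 1, v⟫ • b 1 := by
  have h := b.sum_repr v
  rw [Fin.sum_univ_two] at h
  simp only [OrthonormalBasis.repr_apply_apply] at h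
  exact h.symm

lemma frame_norm (b : OrthonormalBasis (Fin 2) ℝ E2) (i : Fin 2) : ‖b i‖ = 1 :=
  b.orthonormal.1 i

lemma abs_frame_inner_le (b : OrthonormalBasis (Fin 2) ℝ E2) (i : Fin 2) (v : E2) :
    |⟪b i, v⟫| ≤ ‖v‖ := by
  have := abs_real_inner_le_norm (b i) v
  rwa [frame_norm, one_mul] at this

theorem local_cover (b : OrthonormalBasis (Fin 2) ℝ E2) (A : E2 →L[ℝ] E2) (β γ : ℝ)
    (h0 : A (b 0) = γ • b 1) (h1 : A (b 1) = β • b 0)
    {s m₀ B δ κ : ℝ} (hm₀ : 0 < m₀) (hprod : 0 ≤ (s * γ) * (s * β))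
    (hsmall : m₀ ≤ 1 - (s * γ) * (s * β))
    (hb1 : |s * β| ≤ B) (hb2 : |s * γ| ≤ B) (hδ : 0 < δ) (hκ : 0 < κ)
    (o p : E2) (V : E2 → E2)
    (herr : ∀ c', ‖p - c'‖ ≤ 2 * (latK B m₀ + 1) * δ →
      |s| * ‖V p - V c' - A (p - c')‖ ≤ κ * δ) :
    ∃ M N : ℤ, ‖p - lat b o δ M N‖ ≤ 2 * (latK B m₀ + 1) * δ ∧
      ∃ x ∈ Icc (0 : ℝ) 1, ∃ y ∈ Icc (0 : ℝ) 1,
        p + s • V p = (lat b o δ M N - (κ * δ) • b 0 - (κ * δ) • b 1)
          + x • (((1 + 2 * κ) * δ) • b 0) + y • (((1 + 2 * κ) * δ) • b 1)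
          + s • V (lat b o δ M N) := by
  have hB : 0 ≤ B := le_trans (abs_nonneg _) hb1
  set K := latK B m₀ with hK
  have hK0 : 0 ≤ K := by
    rw [hK, latK]; positivity
  have hprod1 : (s * γ) * (s * β) < 1 := by linarith
  -- coordinates of `p - o`
  set x₀ : ℝ := ⟪b 0, p - o⟫ with hx₀
  set y₀ : ℝ := ⟪b 1, p - o⟫ with hy₀
  set m₁ : ℤ := ⌊x₀ / δ⌋ with hm₁
  set n₁ : ℤ := ⌊y₀ / δ⌋ with hn₁
  set ξ : ℝ := x₀ - m₁ * δ with hξ
  set υ : ℝ := y₀ - n₁ * δ with hυ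
  have hξ0 : 0 ≤ ξ := by
    have := Int.floor_le (x₀ / δ)
    rw [le_div_iff₀ hδ] at this
    rw [hξ]; linarith
  have hξ1 : ξ ≤ δ := by
    have := (Int.lt_floor_add_one (x₀ / δ)).le
    rw [div_le_iff₀ hδ] at this
    rw [hξ]
    have h2 : ((m₁ : ℝ) + 1) * δ = m₁ * δ + δ := by ring
    rw [hm₁] at h2 ⊢
    linarith
  have hυ0 : 0 ≤ υ := by
    have := Int.floor_le (y₀ / δ)
    rw [le_div_iff₀ hδ] at this
    rw [hυ]; linarith
  have hυ1 : υ ≤ δ := by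
    have := (Int.lt_floor_add_one (y₀ / δ)).le
    rw [div_le_iff₀ hδ] at this
    rw [hυ]
    have h2 : ((n₁ : ℝ) + 1) * δ = n₁ * δ + δ := by ring
    rw [hn₁] at h2 ⊢
    linarith
  set a : ℝ := s * γ with ha
  set a' : ℝ := s * β with ha'
  set X : ℝ := (ξ + a' * υ) / δ with hX
  set Y : ℝ := (υ + a * ξ) / δ with hY
  have hXb : |X| ≤ 1 + B := by
    rw [hX, abs_div, abs_of_pos hδ, div_le_iff₀ hδ]
    have h1 : |a' * υ| ≤ B * δ := by
      rw [abs_mul, abs_of_nonneg hυ0]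
      exact mul_le_mul hb1 hυ1 hυ0 hB
    calc |ξ + a' * υ| ≤ |ξ| + |a' * υ| := abs_add_le _ _
      _ ≤ δ + B * δ := by rw [abs_of_nonneg hξ0]; linarith
      _ = (1 + B) * δ := by ring
  have hYb : |Y| ≤ 1 + B := by
    rw [hY, abs_div, abs_of_pos hδ, div_le_iff₀ hδ]
    have h1 : |a * ξ| ≤ B * δ := by
      rw [abs_mul, abs_of_nonneg hξ0]
      exact mul_le_mul hb2 hξ1 hξ0 hB
    calc |υ + a * ξ| ≤ |υ| + |a * ξ| := abs_add_le _ _
      _ ≤ δ + B * δ := by rw [abs_of_nonneg hυ0]; linarith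
      _ = (1 + B) * δ := by ring
  obtain ⟨m, n, l1, l2, l3, l4⟩ := lattice_cover a a' X Y hprod hprod1
  obtain ⟨bm, bn⟩ := lattice_bound a a' X Y m n hm₀ hsmall hb2 hb1 hXb hYb l1 l2 l3 l4
  have bm' : |(m : ℝ)| ≤ K := bm
  have bn' : |(n : ℝ)| ≤ K := bn
  refine ⟨m₁ + m, n₁ + n, ?_⟩
  set c' : E2 := lat b o δ (m₁ + m) (n₁ + n) with hc'
  set u₁ : ℝ := ξ - m * δ with hu₁
  set u₂ : ℝ := υ - n * δ with hu₂
  -- the difference `p - c'` in coordinates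
  have hq : p - c' = u₁ • b 0 + u₂ • b 1 := by
    have h := frame_expand b (p - o)
    rw [← hx₀, ← hy₀] at h
    have h2 : p = o + (x₀ • b 0 + y₀ • b 1) := by
      rw [← h]; abel
    rw [hc', lat, h2, hu₁, hu₂, hξ, hυ]
    push_cast
    module
  have hu₁b : |u₁| ≤ (K + 1) * δ := by
    rw [hu₁]
    calc |ξ - m * δ| ≤ |ξ| + |(m : ℝ) * δ| := abs_sub _ _
      _ ≤ δ + K * δ := by
        rw [abs_of_nonneg hξ0, abs_mul, abs_of_pos hδ]
        have := mul_le_mul_of_nonneg_right bm' hδ.le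
        linarith
      _ = (K + 1) * δ := by ring
  have hu₂b : |u₂| ≤ (K + 1) * δ := by
    rw [hu₂]
    calc |υ - n * δ| ≤ |υ| + |(n : ℝ) * δ| := abs_sub _ _
      _ ≤ δ + K * δ := by
        rw [abs_of_nonneg hυ0, abs_mul, abs_of_pos hδ]
        have := mul_le_mul_of_nonneg_right bn' hδ.le
        linarith
      _ = (K + 1) * δ := by ring
  have hqn : ‖p - c'‖ ≤ 2 * (K + 1) * δ := by
    rw [hq]
    calc ‖u₁ • b 0 + u₂ • b 1‖ ≤ ‖u₁ • b 0‖ + ‖u₂ • b 1‖ := norm_add_le _ _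
      _ = |u₁| + |u₂| := by
        rw [norm_smul, norm_smul, frame_norm, frame_norm]; simp
      _ ≤ 2 * (K + 1) * δ := by linarith
  refine ⟨hqn, ?_⟩
  -- the error
  set e : E2 := V p - V c' - A (p - c') with he
  have hse : ‖s • e‖ ≤ κ * δ := by
    rw [norm_smul]
    exact herr c' hqn
  set e₁ : ℝ := ⟪b 0, s • e⟫ with he₁
  set e₂ : ℝ := ⟪b 1, s • e⟫ with he₂
  have he₁b : |e₁| ≤ κ * δ := le_trans (abs_frame_inner_le b 0 _) hse
  have he₂b : |e₂| ≤ κ * δ := le_trans (abs_frame_inner_le b 1 _) hse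
  have hseexp : s • e = e₁ • b 0 + e₂ • b 1 := frame_expand b _
  have hAq : A (p - c') = (u₂ * β) • b 0 + (u₁ * γ) • b 1 := by
    rw [hq, map_add, map_smul, map_smul, h0, h1, smul_smul, smul_smul]
    abel
  set T₀ : ℝ := u₁ + a' * u₂ + e₁ with hT₀
  set T₁ : ℝ := u₂ + a * u₁ + e₂ with hT₁
  have hkey : p + s • V p = c' + s • V c' + T₀ • b 0 + T₁ • b 1 := by
    have h1 : V p = V c' + A (p - c') + e := by rw [he]; abel
    have h2 : p = c' + (p - c') := by abel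
    have h3 : s • e = e₁ • b 0 + e₂ • b 1 := hseexp
    calc p + s • V p = c' + (p - c') + s • (V c' + A (p - c') + e) := by rw [← h1, ← h2]
      _ = c' + (p - c') + s • V c' + s • A (p - c') + s • e := by
          rw [smul_add, smul_add]; abel
      _ = c' + s • V c' + T₀ • b 0 + T₁ • b 1 := by
          rw [h3, hAq, hq, hT₀, hT₁, ha, ha']
          module
  -- the ranges
  have hT₀r : T₀ = δ * (X - (m + n * a')) + e₁ := by
    rw [hT₀, hX, hu₁, hu₂]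
    field_simp
    ring
  have hT₁r : T₁ = δ * (Y - (n + m * a)) + e₂ := by
    rw [hT₁, hY, hu₁, hu₂]
    field_simp
    ring
  have hd : 0 < (1 + 2 * κ) * δ := by positivity
  have hT₀0 : 0 ≤ T₀ + κ * δ := by
    have h1 : 0 ≤ δ * (X - (m + n * a')) := mul_nonneg hδ.le (by linarith)
    have := (abs_le.1 he₁b).1
    rw [hT₀r]; linarith
  have hT₀1 : T₀ + κ * δ ≤ (1 + 2 * κ) * δ := by
    have h1 : δ * (X - (m + n * a')) ≤ δ * 1 :=
      mul_le_mul_of_nonneg_left (by linarith) hδ.le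
    have := (abs_le.1 he₁b).2
    rw [hT₀r]; linarith
  have hT₁0 : 0 ≤ T₁ + κ * δ := by
    have h1 : 0 ≤ δ * (Y - (n + m * a)) := mul_nonneg hδ.le (by linarith)
    have := (abs_le.1 he₂b).1
    rw [hT₁r]; linarith
  have hT₁1 : T₁ + κ * δ ≤ (1 + 2 * κ) * δ := by
    have h1 : δ * (Y - (n + m * a)) ≤ δ * 1 :=
      mul_le_mul_of_nonneg_left (by linarith) hδ.le
    have := (abs_le.1 he₂b).2
    rw [hT₁r]; linarith
  refine ⟨(T₀ + κ * δ) / ((1 + 2 * κ) * δ), ⟨div_nonneg hT₀0 hd.le, (div_le_one hd).2 hT₀1⟩,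
    (T₁ + κ * δ) / ((1 + 2 * κ) * δ), ⟨div_nonneg hT₁0 hd.le, (div_le_one hd).2 hT₁1⟩, ?_⟩
  rw [smul_smul, smul_smul, div_mul_cancel₀ _ hd.ne', div_mul_cancel₀ _ hd.ne', hkey]
  module

end Crest.Agent.Lib.CylV
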