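import Crest.Agent.Lib.CylV.Assemble

/-!
The final cover: choice of the constants.
-/

set_option autoImplicit false

noncomputable section

namespace Crest.Agent.Lib.CylV

open scoped RealInnerProductSpace ENNReal Topology
open Set MeasureTheory

lemma factor_bound {τ ℓ d κ : ℝ} (hτ : 0 ≤ τ) (hτ1 : τ ≤ 1) (hℓ : 0 < ℓ) (hd0 : 0 ≤ d)
    (hd : d ≤ ℓ * τ / 16) (hκ : κ = τ / 16) :
    (1 + 2 * κ) ^ 2 * (ℓ + 2 * d) ^ 2 / ℓ ^ 2 ≤ 1 + τ := by
  have h1 : (ℓ + 2 * d) / ℓ ≤ 1 + τ / 8 := by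
    rw [div_le_iff₀ hℓ]; nlinarith
  have h0 : 0 ≤ (ℓ + 2 * d) / ℓ := by positivity
  have h2 : ((ℓ + 2 * d) / ℓ) ^ 2 ≤ (1 + τ / 8) ^ 2 := pow_le_pow_left₀ h0 h1 2
  have h3 : (1 + 2 * κ) ^ 2 * (ℓ + 2 * d) ^ 2 / ℓ ^ 2 = (1 + τ / 8) ^ 2 * ((ℓ + 2 * d) / ℓ) ^ 2 := by
    rw [hκ, div_pow]; ring
  rw [h3]
  have h4 : (1 + τ / 8) ^ 2 * ((ℓ + 2 * d) / ℓ) ^ 2 ≤ (1 + τ / 8) ^ 2 * (1 + τ / 8) ^ 2 :=
    mul_le_mul_of_nonneg_left h2 (by positivity)
  have h5 : (1 + τ / 8) ^ 2 * (1 + τ / 8) ^ 2 ≤ 1 + τ := by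
    have a1 : τ ^ 2 ≤ τ := by nlinarith
    have a2 : τ ^ 3 ≤ τ := by nlinarith
    have a3 : τ ^ 4 ≤ τ := by nlinarith [sq_nonneg τ]
    nlinarith
  linarith

lemma final_arith {τ I v ε f : ℝ} (hτ : 0 ≤ τ) (hτ1 : τ ≤ 1) (hτε : τ * (4 + 3 * v) ≤ ε)
    (hI0 : 0 ≤ I) (hIv : I ≤ v) (hf : f ≤ 1 + τ) :
    f * (I + τ + τ * (v + τ)) ≤ I + ε := by
  have hv : 0 ≤ v := le_trans hI0 hIv
  have h0 : 0 ≤ I + τ + τ * (v + τ) := by positivity
  have h1 : f * (I + τ + τ * (v + τ)) ≤ (1 + τ) * (I + τ + τ * (v + τ)) :=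
    mul_le_mul_of_nonneg_right hf h0
  refine le_trans h1 ?_
  have a1 : τ * τ ≤ τ := by nlinarith
  have a2 : τ * I ≤ τ * v := mul_le_mul_of_nonneg_left hIv hτ
  have a3 : τ * τ * v ≤ τ * v := by nlinarith [mul_nonneg hτ hv]
  have a4 : τ * τ * τ ≤ τ := by nlinarith [mul_nonneg hτ hτ]
  nlinarith

theorem main_cover {D : Set E2} (hD : IsCompact D) {V : E2 → E2} {U : Set E2}
    (hU : IsOpen U) (hDU : D ⊆ U) (hV : ContDiffOn ℝ 1 V U) {L h : ℝ} (hL : 0 < L)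
    (htr : ∀ p ∈ D, LinearMap.trace ℝ E2 (fderiv ℝ V p : E2 →ₗ[ℝ] E2) = 0)
    (hdet : ∀ p ∈ D, -(L ^ 2)⁻¹ < LinearMap.det (fderiv ℝ V p : E2 →ₗ[ℝ] E2) ∧
      LinearMap.det (fderiv ℝ V p : E2 →ₗ[ℝ] E2) ≤ 0)
    {ε : ℝ} (hε : 0 < ε) :
    ∃ (ι : Type) (F : Finset ι) (c a b g : ι → E2),
      (∀ t, a t ≠ 0 ∧ ‖b t‖ = ‖a t‖ ∧ ⟪a t, b t⟫ = 0) ∧
      (∀ p ∈ D, ∀ s : ℝ, |s| ≤ L → ∃ t ∈ F, ∃ x ∈ Icc (0 : ℝ) 1, ∃ y ∈ Icc (0 : ℝ) 1,
        p + s • V p = c t + x • a t + y • b t + s • g t) ∧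
      ∑ t ∈ F, ‖a t‖ ^ 2 / Real.sqrt (1 + (g t 0) ^ 2 + h ^ 2 * (g t 1) ^ 2) ≤
        (∫ x in D, Jf h (V x)) + ε := by
  classical
  -- continuity
  have hfc : ContinuousOn (fderiv ℝ V) U := hV.continuousOn_fderiv_of_isOpen hU le_rfl
  have hVc : ContinuousOn V U := hV.continuousOn
  have hJc : ContinuousOn (fun x => Jf h (V x)) U := (continuous_Jf h).comp_continuousOn hVc
  have hdc : ContinuousOn (fun p => LinearMap.det (fderiv ℝ V p : E2 →ₗ[ℝ] E2)) U :=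
    ContinuousLinearMap.continuous_det.comp_continuousOn hfc
  -- the thickening inside U
  obtain ⟨r₀, hr₀, hr₀U⟩ := hD.exists_cthickening_subset_open hU hDU
  have hN : IsCompact (Metric.cthickening r₀ D) := hD.cthickening
  -- bound for the derivative
  obtain ⟨B₁, hB₁⟩ := hD.exists_bound_of_continuousOn (hfc.mono hDU)
  set B₀ := max B₁ 0 with hB₀def
  have hB₀ : 0 ≤ B₀ := le_max_right _ _
  have hAn : ∀ p ∈ D, ‖fderiv ℝ V p‖ ≤ B₀ := fun p hp => le_trans (hB₁ p hp) (le_max_left _ _)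
  -- lower bound for 1 + L² det
  have hL2 : 0 < L ^ 2 := by positivity
  have hposdet : ∀ p ∈ D, 0 < 1 + L ^ 2 * LinearMap.det (fderiv ℝ V p : E2 →ₗ[ℝ] E2) := by
    intro p hp
    have h1 := (hdet p hp).1
    have h2 : L ^ 2 * (-(L ^ 2)⁻¹) < L ^ 2 * LinearMap.det (fderiv ℝ V p : E2 →ₗ[ℝ] E2) :=
      mul_lt_mul_of_pos_left h1 hL2
    have h3 : L ^ 2 * (-(L ^ 2)⁻¹) = -1 := by
      field_simp
    linarith
  obtain ⟨m₀, hm₀, hdetm⟩ : ∃ m₀ : ℝ, 0 < m₀ ∧ ∀ p ∈ D,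
      m₀ ≤ 1 + L ^ 2 * LinearMap.det (fderiv ℝ V p : E2 →ₗ[ℝ] E2) := by
    by_cases hne : D.Nonempty
    · have hc : ContinuousOn
          (fun p => 1 + L ^ 2 * LinearMap.det (fderiv ℝ V p : E2 →ₗ[ℝ] E2)) D :=
        (continuousOn_const.add (continuousOn_const.mul (hdc.mono hDU)))
      obtain ⟨p₀, hp₀, hmin⟩ := hD.exists_isMinOn hne hc
      exact ⟨_, hposdet p₀ hp₀, fun p hp => hmin hp⟩
    · refine ⟨1, one_pos, fun p hp => absurd ⟨p, hp⟩ hne⟩
  -- the small constants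
  set v := (volume D).toReal with hv
  have hv0 : 0 ≤ v := ENNReal.toReal_nonneg
  have h43 : 0 < 4 + 3 * v := by positivity
  set τ := min 1 (ε / (4 + 3 * v)) with hτdef
  have hτ : 0 < τ := lt_min one_pos (div_pos hε h43)
  have hτ1 : τ ≤ 1 := min_le_left _ _
  have hτε : τ * (4 + 3 * v) ≤ ε := by
    have : τ ≤ ε / (4 + 3 * v) := min_le_right _ _
    rwa [le_div_iff₀ h43] at this
  set κ := τ / 16 with hκdef
  have hκ : 0 < κ := by positivity
  set K := latK (L * B₀) m₀ with hKdef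
  have hB : 0 ≤ L * B₀ := mul_nonneg hL.le hB₀
  have hK : 0 ≤ K := by
    rw [hKdef, latK]
    positivity
  set ω := κ / (2 * L * (K + 1)) with hωdef
  have hωpos : 0 < ω := by positivity
  have hω : L * (ω * (2 * (K + 1))) ≤ κ := by
    rw [hωdef]
    apply le_of_eq
    field_simp
  -- moduli of continuity
  have hfu := hN.uniformContinuousOn_of_continuous (hfc.mono hr₀U)
  have hJu := hN.uniformContinuousOn_of_continuous (hJc.mono hr₀U)
  rw [Metric.uniformContinuousOn_iff] at hfu hJu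
  obtain ⟨r₁, hr₁, hf1⟩ := hfu ω hωpos
  obtain ⟨r₂, hr₂, hJ2⟩ := hJu τ hτ
  -- volume of small thickenings
  have hvfin : volume D ≠ ∞ := hD.measure_lt_top.ne
  have htend := tendsto_measure_cthickening_of_isClosed (μ := (volume : Measure E2)) (s := D)
    ⟨r₀, hr₀, hN.measure_lt_top.ne⟩ hD.isClosed
  have hlt : volume D < volume D + ENNReal.ofReal τ :=
    ENNReal.lt_add_right hvfin (by simpa using hτ)
  have hev := htend.eventually (gt_mem_nhds hlt)
  rw [Metric.eventually_nhds_iff] at hev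
  obtain ⟨r₃, hr₃, hvol⟩ := hev
  -- the scale ℓ
  set ℓ := min (r₀ / 4) (min (r₁ / 8) (min (r₂ / 16) (r₃ / 4))) with hℓdef
  have hℓ : 0 < ℓ := by
    refine lt_min (by positivity) (lt_min (by positivity) (lt_min (by positivity) (by positivity)))
  have hℓ0 : ℓ ≤ r₀ / 4 := min_le_left _ _
  have hℓ1 : ℓ ≤ r₁ / 8 := le_trans (min_le_right _ _) (min_le_left _ _)
  have hℓ2 : ℓ ≤ r₂ / 16 :=
    le_trans (min_le_right _ _) (le_trans (min_le_right _ _) (min_le_left _ _))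
  have hℓ3 : ℓ ≤ r₃ / 4 :=
    le_trans (min_le_right _ _) (le_trans (min_le_right _ _) (min_le_right _ _))
  -- the scale δ
  have h2K5 : 0 < 2 * K + 5 := by positivity
  set δ := ℓ * τ / (16 * (2 * K + 5)) with hδdef
  have hδ : 0 < δ := by positivity
  set bd := 2 * (K + 2) * δ with hbddef
  have hbd0 : 0 ≤ bd := by positivity
  have hbdδ : bd + δ = ℓ * τ / 16 := by
    rw [hbddef, hδdef]
    field_simp
    ring
  have hbdℓ : bd + δ ≤ ℓ := by
    rw [hbdδ]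
    nlinarith
  -- balls in the thickening
  have hballN : ∀ P ∈ D, Metric.closedBall P (4 * ℓ) ⊆ Metric.cthickening r₀ D := by
    intro P hP
    refine (Metric.closedBall_subset_cthickening hP _).trans ?_
    exact Metric.cthickening_mono (by linarith) D
  have hT2N : Metric.cthickening (2 * ℓ) D ⊆ Metric.cthickening r₀ D :=
    Metric.cthickening_mono (by linarith) D
  have hPN : ∀ P ∈ D, P ∈ Metric.closedBall P (4 * ℓ) := fun P _ =>
    Metric.mem_closedBall_self (by positivity)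
  have hJi : IntegrableOn (fun x => Jf h (V x)) (Metric.cthickening (2 * ℓ) D) :=
    ContinuousOn.integrableOn_compact hD.cthickening ((hJc.mono hr₀U).mono hT2N)
  obtain ⟨ι, F, c, a, b, g, h1, h2, h3⟩ := cover_with_constants (h := h) hD hU hV hL htr
    (fun p hp => (hdet p hp).2) (m₀ := m₀) (B₀ := B₀) (ℓ := ℓ) (δ := δ) (κ := κ) (τ := τ) (ω := ω)
    (bd := bd) hm₀ hδ hκ hℓ hτ.le hdetm hAn hbd0 rfl hbdℓ
    (fun P hP => (hballN P hP).trans hr₀U)
    (by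
      intro P hP q hq
      have hd : dist q P ≤ 4 * ℓ := Metric.mem_closedBall.1 hq
      have := hf1 q (hballN P hP hq) P (hballN P hP (hPN P hP)) (by linarith)
      rw [dist_eq_norm] at this
      exact this.le)
    hω
    (by
      intro P hP x hx y hy
      have hd : dist x y ≤ 8 * ℓ := by
        have h1 : dist x P ≤ 4 * ℓ := Metric.mem_closedBall.1 hx
        have h2 : dist y P ≤ 4 * ℓ := Metric.mem_closedBall.1 hy
        have h3 := dist_triangle_right x y P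
        linarith
      have := hJ2 x (hballN P hP hx) y (hballN P hP hy) (by linarith)
      rw [Real.dist_eq, abs_lt] at this
      linarith [this.2])
    hJi hD.cthickening.measure_lt_top.ne
    (by
      have := hvol (y := 2 * ℓ) (by
        rw [Real.dist_eq, sub_zero, abs_of_pos (by positivity)]
        linarith)
      exact this.le)
  refine ⟨ι, F, c, a, b, g, h1, h2, le_trans h3 ?_⟩
  -- final arithmetic
  have hI0 : 0 ≤ ∫ x in D, Jf h (V x) := integral_nonneg fun x => (Jf_pos _ _).le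
  have hIv : ∫ x in D, Jf h (V x) ≤ v := by
    have hJD : IntegrableOn (fun x => Jf h (V x)) D := hJi.mono_set (Metric.self_subset_cthickening D)
    have := setIntegral_mono_on hJD (integrableOn_const hvfin (C := (1 : ℝ))) hD.measurableSet
      (fun x _ => Jf_le_one h (V x))
    rw [setIntegral_const, smul_eq_mul, mul_one, measureReal_def] at this
    exact this
  exact final_arith hτ.le hτ1 hτε hI0 hIv
    (factor_bound hτ.le hτ1 hℓ (by positivity) (by rw [hbdδ]) hκdef)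

end Crest.Agent.Lib.CylV
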