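import Crest.Agent.Lib.CylV.Grid

/-!
Bookkeeping of the total weighted area.
-/

set_option autoImplicit false

noncomputable section

namespace Crest.Agent.Lib.CylV

open scoped RealInnerProductSpace ENNReal
open Set MeasureTheory

/-- The weight. -/
def Jf (h : ℝ) (w : E2) : ℝ := 1 / Real.sqrt (1 + (w 0) ^ 2 + h ^ 2 * (w 1) ^ 2)

lemma Jf_denom_pos (h : ℝ) (w : E2) : 0 < Real.sqrt (1 + (w 0) ^ 2 + h ^ 2 * (w 1) ^ 2) := by
  apply Real.sqrt_pos.2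
  positivity

lemma Jf_pos (h : ℝ) (w : E2) : 0 < Jf h w := by
  unfold Jf
  exact one_div_pos.2 (Jf_denom_pos h w)

lemma Jf_le_one (h : ℝ) (w : E2) : Jf h w ≤ 1 := by
  unfold Jf
  rw [div_le_one (Jf_denom_pos h w)]
  apply Real.one_le_sqrt.2
  nlinarith [sq_nonneg (w 0), mul_nonneg (sq_nonneg h) (sq_nonneg (w 1))]

lemma continuous_Jf (h : ℝ) : Continuous (Jf h) := by
  unfold Jf
  refine continuous_const.div ?_ (fun w => (Jf_denom_pos h w).ne')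
  fun_prop

lemma sum_bound {ι : Type*} (S : Finset ι) (C : ι → Finset (ℤ × ℤ)) (Q : ι → Set E2)
    (J : E2 → ℝ) (latt : ι → ℤ × ℤ → E2) {ℓ δ κ τ bd : ℝ} (hℓ : 0 < ℓ) (hδ : 0 < δ) (hκ : 0 < κ)
    (hτ : 0 ≤ τ)
    (hQm : ∀ g ∈ S, MeasurableSet (Q g))
    (hQv : ∀ g ∈ S, volume (Q g) = ENNReal.ofReal (ℓ ^ 2))
    (hJi : ∀ g ∈ S, IntegrableOn J (Q g))
    (hJ0 : ∀ x, 0 ≤ J x)
    (hosc : ∀ g ∈ S, ∀ t ∈ C g, ∀ x ∈ Q g, J (latt g t) ≤ J x + τ)
    (hcard : ∀ g ∈ S, ((C g).card : ℝ) * δ ^ 2 ≤ (ℓ + 2 * bd) ^ 2) :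
    ∑ g ∈ S, ∑ t ∈ C g, ((1 + 2 * κ) * δ) ^ 2 * J (latt g t) ≤
      (1 + 2 * κ) ^ 2 * (ℓ + 2 * bd) ^ 2 / ℓ ^ 2 * ∑ g ∈ S, ∫ x in Q g, (J x + τ) := by
  rw [Finset.mul_sum]
  refine Finset.sum_le_sum fun g hg => ?_
  have hvolfin : volume (Q g) ≠ ∞ := by rw [hQv g hg]; exact ENNReal.ofReal_ne_top
  have hconst : IntegrableOn (fun _ : E2 => τ) (Q g) :=
    integrableOn_const hvolfin
  have hvol : (volume (Q g)).toReal = ℓ ^ 2 := by
    rw [hQv g hg, ENNReal.toReal_ofReal (by positivity)]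
  have hI0 : 0 ≤ ∫ x in Q g, (J x + τ) :=
    integral_nonneg fun x => add_nonneg (hJ0 x) hτ
  have hterm : ∀ t ∈ C g, J (latt g t) * ℓ ^ 2 ≤ ∫ x in Q g, (J x + τ) := by
    intro t ht
    have h1 : ∫ _x in Q g, J (latt g t) ≤ ∫ x in Q g, (J x + τ) := by
      refine setIntegral_mono_on (integrableOn_const hvolfin) ((hJi g hg).add hconst)
        (hQm g hg) fun x hx => hosc g hg t ht x hx
    have h2 : ∫ _x in Q g, J (latt g t) = J (latt g t) * ℓ ^ 2 := by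
      rw [setIntegral_const, smul_eq_mul, measureReal_def, hvol]; ring
    rwa [h2] at h1
  have hℓ2 : 0 < ℓ ^ 2 := by positivity
  have hterm' : ∀ t ∈ C g, J (latt g t) ≤ (∫ x in Q g, (J x + τ)) / ℓ ^ 2 := fun t ht =>
    (le_div_iff₀ hℓ2).2 (hterm t ht)
  calc ∑ t ∈ C g, ((1 + 2 * κ) * δ) ^ 2 * J (latt g t)
      ≤ ∑ _t ∈ C g, ((1 + 2 * κ) * δ) ^ 2 * ((∫ x in Q g, (J x + τ)) / ℓ ^ 2) :=
        Finset.sum_le_sum fun t ht =>
          mul_le_mul_of_nonneg_left (hterm' t ht) (by positivity)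
    _ = (1 + 2 * κ) ^ 2 * (((C g).card : ℝ) * δ ^ 2) * ((∫ x in Q g, (J x + τ)) / ℓ ^ 2) := by
        rw [Finset.sum_const, nsmul_eq_mul]; ring
    _ ≤ (1 + 2 * κ) ^ 2 * (ℓ + 2 * bd) ^ 2 * ((∫ x in Q g, (J x + τ)) / ℓ ^ 2) := by
        refine mul_le_mul_of_nonneg_right ?_ (div_nonneg hI0 hℓ2.le)
        exact mul_le_mul_of_nonneg_left (hcard g hg) (by positivity)
    _ = (1 + 2 * κ) ^ 2 * (ℓ + 2 * bd) ^ 2 / ℓ ^ 2 * ∫ x in Q g, (J x + τ) := by ring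

lemma integral_bound {ι : Type*} (S : Finset ι) (Q : ι → Set E2) (D T : Set E2) (J : E2 → ℝ)
    {τ : ℝ} (hτ : 0 ≤ τ) (hDm : MeasurableSet D) (hQm : ∀ g ∈ S, MeasurableSet (Q g))
    (hdisj : Set.PairwiseDisjoint (↑S) Q)
    (hDsub : D ⊆ ⋃ g ∈ S, Q g) (hsubT : (⋃ g ∈ S, Q g) ⊆ T)
    (hT : volume T ≠ ∞) (hTm : volume T ≤ volume D + ENNReal.ofReal τ)
    (hJ : IntegrableOn J T) (hJ0 : ∀ x, 0 ≤ J x) (hJ1 : ∀ x, J x ≤ 1) :
    ∑ g ∈ S, ∫ x in Q g, (J x + τ) ≤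
      (∫ x in D, J x) + τ + τ * ((volume D).toReal + τ) := by
  set W := ⋃ g ∈ S, Q g with hW
  have hWm : MeasurableSet W := Finset.measurableSet_biUnion _ hQm
  have hWfin : volume W ≠ ∞ := ne_top_of_le_ne_top hT (measure_mono hsubT)
  have hDfin : volume D ≠ ∞ := ne_top_of_le_ne_top hWfin (measure_mono hDsub)
  have hJW : IntegrableOn J W := hJ.mono_set hsubT
  have hcW : IntegrableOn (fun _ : E2 => τ) W := integrableOn_const hWfin
  have hsum : ∑ g ∈ S, ∫ x in Q g, (J x + τ) = ∫ x in W, (J x + τ) := by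
    rw [hW, integral_biUnion_finset S hQm hdisj]
    intro g hg
    apply (hJW.add hcW).mono_set
    exact subset_biUnion_of_mem (u := Q) (Finset.mem_coe.2 hg)
  rw [hsum, integral_add hJW hcW]
  have hc : ∫ _x in W, τ = (volume W).toReal * τ := by
    rw [setIntegral_const, smul_eq_mul, measureReal_def]
  have hdiff : ∫ x in W \ D, J x = (∫ x in W, J x) - ∫ x in D, J x :=
    setIntegral_sdiff hDm hJW hDsub
  have hdiffle : ∫ x in W \ D, J x ≤ (volume (W \ D)).toReal := by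
    have hfin : volume (W \ D) ≠ ∞ := ne_top_of_le_ne_top hWfin (measure_mono sdiff_subset)
    have := setIntegral_mono_on (hJW.mono_set sdiff_subset)
      (integrableOn_const hfin (C := (1 : ℝ))) (hWm.diff hDm) (fun x _ => hJ1 x)
    rw [setIntegral_const, smul_eq_mul, mul_one, measureReal_def] at this
    exact this
  have hvolW : (volume W).toReal ≤ (volume D).toReal + τ := by
    have h1 : volume W ≤ volume D + ENNReal.ofReal τ := le_trans (measure_mono hsubT) hTm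
    have h2 := ENNReal.toReal_mono (ENNReal.add_ne_top.2 ⟨hDfin, ENNReal.ofReal_ne_top⟩) h1
    rwa [ENNReal.toReal_add hDfin ENNReal.ofReal_ne_top, ENNReal.toReal_ofReal hτ] at h2
  have hvoldiff : (volume (W \ D)).toReal = (volume W).toReal - (volume D).toReal := by
    rw [measure_sdiff hDsub hDm.nullMeasurableSet hDfin, ENNReal.toReal_sub_of_le
      (measure_mono hDsub) hWfin]
  rw [hc]
  have h5 : (volume W).toReal * τ ≤ ((volume D).toReal + τ) * τ :=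
    mul_le_mul_of_nonneg_right hvolW hτ
  have h6 : ∫ x in W, J x = (∫ x in D, J x) + ∫ x in W \ D, J x := by rw [hdiff]; ring
  rw [h6]
  nlinarith

end Crest.Agent.Lib.CylV
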