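import Crest.Agent.Lib.CylV.LocalCover

/-!
Rectangles and lattice tiles in the plane, their volumes, and the counting bound for tiles inside a
set of finite measure.
-/

set_option autoImplicit false

noncomputable section

namespace Crest.Agent.Lib.CylV

open scoped RealInnerProductSpace ENNReal
open Set MeasureTheory

/-- Half-open axis-parallel rectangles. -/
def rect (x₀ x₁ y₀ y₁ : ℝ) : Set E2 := {v | v 0 ∈ Ico x₀ x₁ ∧ v 1 ∈ Ico y₀ y₁}

lemma rect_eq_preimage (x₀ x₁ y₀ y₁ : ℝ) :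
    rect x₀ x₁ y₀ y₁ = (WithLp.ofLp : E2 → (Fin 2 → ℝ)) ⁻¹'
      (Set.pi Set.univ ![Ico x₀ x₁, Ico y₀ y₁]) := by
  ext v
  simp [rect, Set.mem_pi, Fin.forall_fin_two]

lemma measurableSet_rect (x₀ x₁ y₀ y₁ : ℝ) : MeasurableSet (rect x₀ x₁ y₀ y₁) := by
  rw [rect_eq_preimage]
  refine MeasurableSet.preimage ?_ (PiLp.volume_preserving_ofLp (Fin 2)).measurable
  refine MeasurableSet.univ_pi fun i => ?_
  fin_cases i <;> simp [measurableSet_Ico]

lemma volume_rect (x₀ x₁ y₀ y₁ : ℝ) :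
    volume (rect x₀ x₁ y₀ y₁) = ENNReal.ofReal (x₁ - x₀) * ENNReal.ofReal (y₁ - y₀) := by
  rw [rect_eq_preimage, (PiLp.volume_preserving_ofLp (Fin 2)).measure_preimage
    (MeasurableSet.nullMeasurableSet (MeasurableSet.univ_pi fun i => by
      fin_cases i <;> simp [measurableSet_Ico])), volume_pi_pi]
  simp [Fin.prod_univ_two]

/-- A lattice tile in a frame. -/
def tile (b : OrthonormalBasis (Fin 2) ℝ E2) (o : E2) (δ : ℝ) (M N : ℤ) : Set E2 :=
  {v | ⟪b 0, v - o⟫ ∈ Ico ((M : ℝ) * δ) (((M : ℝ) + 1) * δ) ∧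
       ⟪b 1, v - o⟫ ∈ Ico ((N : ℝ) * δ) (((N : ℝ) + 1) * δ)}

lemma tile_eq_preimage (b : OrthonormalBasis (Fin 2) ℝ E2) (o : E2) (δ : ℝ) (M N : ℤ) :
    tile b o δ M N = (fun v => b.repr (v - o)) ⁻¹'
      rect ((M : ℝ) * δ) (((M : ℝ) + 1) * δ) ((N : ℝ) * δ) (((N : ℝ) + 1) * δ) := by
  ext v
  simp only [tile, rect, mem_ofPred_eq, mem_preimage, OrthonormalBasis.repr_apply_apply]

lemma measurePreserving_frame (b : OrthonormalBasis (Fin 2) ℝ E2) (o : E2) :
    MeasurePreserving (fun v => b.repr (v - o)) (volume : Measure E2) (volume : Measure E2) := by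
  have h1 : MeasurePreserving (fun v : E2 => v - o) volume volume := measurePreserving_sub_right _ o
  exact (b.repr.measurePreserving).comp h1

lemma measurableSet_tile (b : OrthonormalBasis (Fin 2) ℝ E2) (o : E2) (δ : ℝ) (M N : ℤ) :
    MeasurableSet (tile b o δ M N) := by
  rw [tile_eq_preimage]
  exact (measurableSet_rect _ _ _ _).preimage (measurePreserving_frame b o).measurable

lemma volume_tile (b : OrthonormalBasis (Fin 2) ℝ E2) (o : E2) {δ : ℝ} (hδ : 0 ≤ δ) (M N : ℤ) :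
    volume (tile b o δ M N) = ENNReal.ofReal (δ ^ 2) := by
  rw [tile_eq_preimage, (measurePreserving_frame b o).measure_preimage
    (measurableSet_rect _ _ _ _).nullMeasurableSet, volume_rect, ← ENNReal.ofReal_mul (by
      have : ((M : ℝ) + 1) * δ - (M : ℝ) * δ = δ := by ring
      rw [this]; exact hδ)]
  congr 1
  ring

lemma int_eq_of_mem_Ico {δ x : ℝ} (hδ : 0 < δ) {M N : ℤ}
    (h1 : x ∈ Ico ((M : ℝ) * δ) (((M : ℝ) + 1) * δ))
    (h2 : x ∈ Ico ((N : ℝ) * δ) (((N : ℝ) + 1) * δ)) : M = N := by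
  have a1 : (M : ℝ) * δ < ((N : ℝ) + 1) * δ := lt_of_le_of_lt h1.1 h2.2
  have a2 : (N : ℝ) * δ < ((M : ℝ) + 1) * δ := lt_of_le_of_lt h2.1 h1.2
  have a3 : (M : ℝ) < (N : ℝ) + 1 := lt_of_mul_lt_mul_right a1 hδ.le
  have a4 : (N : ℝ) < (M : ℝ) + 1 := lt_of_mul_lt_mul_right a2 hδ.le
  have a5 : M < N + 1 := by exact_mod_cast a3
  have a6 : N < M + 1 := by exact_mod_cast a4
  omega

lemma tile_disjoint (b : OrthonormalBasis (Fin 2) ℝ E2) (o : E2) {δ : ℝ} (hδ : 0 < δ)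
    {p q : ℤ × ℤ} (hpq : p ≠ q) :
    Disjoint (tile b o δ p.1 p.2) (tile b o δ q.1 q.2) := by
  rw [Set.disjoint_left]
  intro v hp hq
  apply hpq
  exact Prod.ext (int_eq_of_mem_Ico hδ hp.1 hq.1) (int_eq_of_mem_Ico hδ hp.2 hq.2)

/-- Counting: tiles inside a set of finite measure. -/
lemma card_mul_le_volume (b : OrthonormalBasis (Fin 2) ℝ E2) (o : E2) {δ : ℝ} (hδ : 0 < δ)
    (C : Finset (ℤ × ℤ)) (W : Set E2) (hW : volume W ≠ ∞)
    (hsub : ∀ t ∈ C, tile b o δ t.1 t.2 ⊆ W) :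
    (C.card : ℝ) * δ ^ 2 ≤ (volume W).toReal := by
  have h1 : volume (⋃ t ∈ C, tile b o δ t.1 t.2) = ∑ t ∈ C, volume (tile b o δ t.1 t.2) :=
    measure_biUnion_finset (fun p _ q _ hpq => tile_disjoint b o hδ hpq)
      (fun t _ => measurableSet_tile b o δ t.1 t.2)
  have h2 : volume (⋃ t ∈ C, tile b o δ t.1 t.2) ≤ volume W :=
    measure_mono (iUnion₂_subset hsub)
  rw [h1] at h2
  simp only [volume_tile b o hδ.le, Finset.sum_const, nsmul_eq_mul] at h2
  have h3 := ENNReal.toReal_mono hW h2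
  rw [ENNReal.toReal_mul, ENNReal.toReal_natCast, ENNReal.toReal_ofReal (by positivity)] at h3
  exact h3

lemma lat_mem_tile (b : OrthonormalBasis (Fin 2) ℝ E2) (o : E2) {δ : ℝ} (hδ : 0 < δ) (M N : ℤ) :
    lat b o δ M N ∈ tile b o δ M N := by
  have h00 : ⟪b 0, b 0⟫ = 1 := by
    rw [real_inner_self_eq_norm_sq, frame_norm]; norm_num
  have h11 : ⟪b 1, b 1⟫ = 1 := by
    rw [real_inner_self_eq_norm_sq, frame_norm]; norm_num
  have h01 : ⟪b 0, b 1⟫ = 0 := by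
    have := b.orthonormal.2 (show (0 : Fin 2) ≠ 1 by decide)
    exact this
  have h10 : ⟪b 1, b 0⟫ = 0 := by rw [real_inner_comm]; exact h01
  have hv : lat b o δ M N - o = ((M : ℝ) * δ) • b 0 + ((N : ℝ) * δ) • b 1 := by
    rw [lat]; abel
  constructor
  · rw [hv, inner_add_right, inner_smul_right, inner_smul_right, h00, h01]
    constructor
    · simp
    · have : ((M : ℝ) + 1) * δ = M * δ + δ := by ring
      rw [this]; simp [hδ]
  · rw [hv, inner_add_right, inner_smul_right, inner_smul_right, h10, h11]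
    constructor
    · simp
    · have : ((N : ℝ) + 1) * δ = N * δ + δ := by ring
      rw [this]; simp [hδ]

lemma norm_le_of_mem_tile (b : OrthonormalBasis (Fin 2) ℝ E2) (o : E2) {δ : ℝ} (hδ : 0 < δ)
    {M N : ℤ} {v : E2} (hv : v ∈ tile b o δ M N) : ‖v - lat b o δ M N‖ ≤ 2 * δ := by
  have h00 : ⟪b 0, b 0⟫ = 1 := by
    rw [real_inner_self_eq_norm_sq, frame_norm]; norm_num
  have h11 : ⟪b 1, b 1⟫ = 1 := by
    rw [real_inner_self_eq_norm_sq, frame_norm]; norm_num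
  have h01 : ⟪b 0, b 1⟫ = 0 := b.orthonormal.2 (show (0 : Fin 2) ≠ 1 by decide)
  have h10 : ⟪b 1, b 0⟫ = 0 := by rw [real_inner_comm]; exact h01
  have hexp := frame_expand b (v - o)
  have hd : v - lat b o δ M N = (⟪b 0, v - o⟫ - M * δ) • b 0 + (⟪b 1, v - o⟫ - N * δ) • b 1 := by
    have h1 : v - lat b o δ M N = (v - o) - (((M : ℝ) * δ) • b 0 + ((N : ℝ) * δ) • b 1) := by
      rw [lat]; abel
    rw [h1]
    conv_lhs => rw [hexp]
    module
  rw [hd]
  have e1 : |⟪b 0, v - o⟫ - M * δ| ≤ δ := by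
    rw [abs_le]
    have h1 := hv.1.1
    have h2 := hv.1.2
    have : ((M : ℝ) + 1) * δ = M * δ + δ := by ring
    constructor <;> linarith
  have e2 : |⟪b 1, v - o⟫ - N * δ| ≤ δ := by
    rw [abs_le]
    have h1 := hv.2.1
    have h2 := hv.2.2
    have : ((N : ℝ) + 1) * δ = N * δ + δ := by ring
    constructor <;> linarith
  calc ‖(⟪b 0, v - o⟫ - M * δ) • b 0 + (⟪b 1, v - o⟫ - N * δ) • b 1‖
      ≤ ‖(⟪b 0, v - o⟫ - M * δ) • b 0‖ + ‖(⟪b 1, v - o⟫ - N * δ) • b 1‖ := norm_add_le _ _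
    _ = |⟪b 0, v - o⟫ - M * δ| + |⟪b 1, v - o⟫ - N * δ| := by
        rw [norm_smul, norm_smul, frame_norm, frame_norm]; simp
    _ ≤ 2 * δ := by linarith

/-- The index bound from the distance of a lattice point to its origin. -/
lemma lat_index_bound (b : OrthonormalBasis (Fin 2) ℝ E2) (o : E2) {δ R : ℝ} (hδ : 0 < δ)
    {M N : ℤ} (h : ‖lat b o δ M N - o‖ ≤ R) : |(M : ℝ)| ≤ R / δ ∧ |(N : ℝ)| ≤ R / δ := by
  have h00 : ⟪b 0, b 0⟫ = 1 := by
    rw [real_inner_self_eq_norm_sq, frame_norm]; norm_num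
  have h11 : ⟪b 1, b 1⟫ = 1 := by
    rw [real_inner_self_eq_norm_sq, frame_norm]; norm_num
  have h01 : ⟪b 0, b 1⟫ = 0 := b.orthonormal.2 (show (0 : Fin 2) ≠ 1 by decide)
  have h10 : ⟪b 1, b 0⟫ = 0 := by rw [real_inner_comm]; exact h01
  have hv : lat b o δ M N - o = ((M : ℝ) * δ) • b 0 + ((N : ℝ) * δ) • b 1 := by
    rw [lat]; abel
  have e0 : ⟪b 0, lat b o δ M N - o⟫ = M * δ := by
    rw [hv, inner_add_right, inner_smul_right, inner_smul_right, h00, h01]; ring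
  have e1 : ⟪b 1, lat b o δ M N - o⟫ = N * δ := by
    rw [hv, inner_add_right, inner_smul_right, inner_smul_right, h10, h11]; ring
  have a0 := abs_frame_inner_le b 0 (lat b o δ M N - o)
  have a1 := abs_frame_inner_le b 1 (lat b o δ M N - o)
  rw [e0, abs_mul, abs_of_pos hδ] at a0
  rw [e1, abs_mul, abs_of_pos hδ] at a1
  constructor
  · rw [le_div_iff₀ hδ]; linarith
  · rw [le_div_iff₀ hδ]; linarith

end Crest.Agent.Lib.CylV
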